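import Vale.Agent.P146.R3.H453.Num2

set_option linter.all false

/-!
P146, R7: the concentration, the lower tail and the order from the rate of the mean.
-/

open MeasureTheory ProbabilityTheory Filter Topology

namespace Vale.Agent.P146.Tb

open Vale.Agent.P146.Sx Vale.Agent.P146.Ub.Cv Vale.Agent.P146.H605 Vale.Agent.P146.Ce

/-- the upper tail at the scale given by a bound `A` of the correction of the mean -/
theorem up_A {β : ℝ} {C : ℝ} (hC : 1 ≤ C) {n : ℕ} (hn : 1 ≤ n)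
    (hmom : ∀ x : ℝ, 0 < x → x ≤ 1 →
      Real.log (∫ g, Real.exp (x * freeEnergy n β g) ∂(disorder n)) ≤
        x * (n * pv β) + C * n * x ^ 6) {A : ℝ} (hA : 1 ≤ A) (hA6 : (n : ℝ) ^ (1 / 6 : ℝ) ≤ A)
    (hAn : A ≤ n) (hM : n * pv β - ∫ g, freeEnergy n β g ∂(disorder n) ≤ C * A)
    {V : ℝ} (hV : (β ^ 2 / 2 + 18 * C) * ((n : ℝ) ^ (1 / 5 : ℝ) * A ^ (4 / 5 : ℝ)) *
      (1 + Real.log n) ≤ V) {t : ℝ} (ht : 0 ≤ t) :
    (disorder n).real {g | ∫ g, freeEnergy n β g ∂(disorder n) + t * √V ≤ freeEnergy n β g} ≤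
      Real.exp (1 - t) := by
  have hn1 : (1 : ℝ) ≤ n := by exact_mod_cast hn
  have hn0 : (0 : ℝ) < n := by linarith
  have hl0 : 0 ≤ Real.log n := Real.log_nonneg hn1
  obtain ⟨f1, f2, f3, f4⟩ := fifth hn1 hA hAn
  have hexp := fun (y : ℝ) (hy : 0 < y) (hyu : y ≤ (A / n) ^ (1 / 5 : ℝ)) =>
    mgf_A hn hC (by linarith : (0 : ℝ) ≤ C) hmom hA hAn hM hy hyu
  obtain ⟨S, hS⟩ : ∃ S, S = (n : ℝ) ^ (1 / 5 : ℝ) * A ^ (4 / 5 : ℝ) := ⟨_, rfl⟩
  rw [← hS] at hV f4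
  obtain ⟨u, hu⟩ : ∃ u, u = (A / n) ^ (1 / 5 : ℝ) := ⟨_, rfl⟩
  rw [← hu] at f1 f2 f3 f4
  simp only [← hu] at hexp
  have hS1 : 1 ≤ S := by
    rw [hS]
    exact one_le_mul_of_one_le_of_one_le (Real.one_le_rpow hn1 (by norm_num))
      (Real.one_le_rpow hA (by norm_num))
  have hS0 : 0 < S := by linarith
  have hK0 : 0 < β ^ 2 / 2 + 18 * C := by positivity
  have hSu : S * u = A := by
    rw [← f4]
    field_simp
  -- `A u ≥ 1`
  have hAu : 1 ≤ u * A := by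
    have h1 : (n : ℝ) ≤ A ^ 6 := by
      have h2 : ((n : ℝ) ^ (1 / 6 : ℝ)) ^ 6 = n := by
        rw [← Real.rpow_natCast, ← Real.rpow_mul hn0.le]
        norm_num
      rw [← h2]
      exact pow_le_pow_left₀ (by positivity) hA6 6
    have h3 : 1 ≤ (u * A) ^ 5 := by
      have h4 : (u * A) ^ 5 = A ^ 6 / n := by
        have h5 : u ^ 5 = A / n := by
          rw [eq_div_iff hn0.ne']
          linarith
        rw [mul_pow, h5]
        field_simp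
      rw [h4, le_div_iff₀ hn0]
      linarith
    by_contra hcon
    push Not at hcon
    have := pow_lt_one₀ (by positivity) hcon (n := 5) (by norm_num)
    linarith
  have h := up_exp (reg_freeEnergy n β) (lin_freeEnergy n β) (Lt.lt_lin_grad n β)
    (tangent_freeEnergy n β) (sum_gradF_sq n β) (x := u / 3) (L := (C + C) * (u * A))
    (by positivity) (by positivity)
    (fun a ha hax => by
      have h1 : 0 < 2 * (a + u / 3) := by positivity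
      exact hexp (2 * (a + u / 3)) h1 (by linarith))
    (u := 1 / n) (by positivity) (by rw [div_le_one hn0]; exact hn1) (V := V) (by
      have e1 : β ^ 2 * n / 2 * (1 / n) = β ^ 2 / 2 := by field_simp
      have e2 : (C + C) * (u * A) / (u / 3) ^ 2 = 18 * C * S := by
        rw [← f4]
        field_simp
        ring
      have e3 : -Real.log (1 / n) = Real.log n := by rw [one_div, Real.log_inv, neg_neg]
      rw [e1, e2, e3]
      refine le_trans ?_ hV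
      have h1 : 0 ≤ 18 * C * S := by positivity
      have h2 : β ^ 2 / 2 ≤ β ^ 2 / 2 * S := le_mul_of_one_le_right (by positivity) hS1
      have h3 : 0 ≤ β ^ 2 / 2 * S * Real.log n := by positivity
      have e : (β ^ 2 / 2 + 18 * C) * S * (1 + Real.log n) =
        β ^ 2 / 2 * S + β ^ 2 / 2 * S * Real.log n + 18 * C * S + 18 * C * S * Real.log n := by
        ring
      rw [e]
      linarith)
    (lt_of_lt_of_le (by positivity) hV) (by
      have h1 : 1 ≤ (β ^ 2 / 2 + 18 * C) * S * (1 + Real.log n) * (u / 3) ^ 2 := by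
        have e : (β ^ 2 / 2 + 18 * C) * S * (1 + Real.log n) * (u / 3) ^ 2 =
          ((β ^ 2 / 2 + 18 * C) / 9) * (1 + Real.log n) * (u * (S * u)) := by ring
        rw [e, hSu]
        have h2 : 1 ≤ (β ^ 2 / 2 + 18 * C) / 9 := by
          rw [le_div_iff₀ (by norm_num)]
          nlinarith [sq_nonneg β]
        exact one_le_mul_of_one_le_of_one_le
          (one_le_mul_of_one_le_of_one_le h2 (by linarith)) hAu
      exact h1.trans (mul_le_mul_of_nonneg_right hV (by positivity)))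
    (t := t) ht
  exact h

/-- the lower tail at the scale of a bound of the variance -/
theorem dn_A {β : ℝ} {n : ℕ} {V : ℝ} (hV0 : 0 < V) (hV : Var[freeEnergy n β; disorder n] ≤ V)
    {t : ℝ} (ht : 0 ≤ t) :
    (disorder n).real {g | freeEnergy n β g ≤ ∫ g, freeEnergy n β g ∂(disorder n) - t * √V} ≤
      2 * Real.exp (-(t / 4)) := by
  rw [var_eq] at hV
  exact low_exp (G := gradF n β) (lin_freeEnergy n β) (tangent_freeEnergy n β)
    (Real.sqrt_pos.2 hV0) (by rw [Real.sq_sqrt hV0.le]; exact hV) ht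

/-- **Exponential concentration at the scale `n^(11/26) (1 + log n)^(3/2)`.** -/
theorem conc_rate {β : ℝ} (hβ : 1 ≤ β) (hR : MR β) : ∃ C k : ℝ, 1 ≤ C ∧ 0 < k ∧
    ∀ n : ℕ, 1 ≤ n → ∀ t : ℝ, 0 ≤ t →
      (disorder n).real {g | t * ((n : ℝ) ^ (11 / 26 : ℝ) * (1 + Real.log n) ^ (3 / 2 : ℝ)) ≤
        |freeEnergy n β g - ∫ g, freeEnergy n β g ∂(disorder n)|} ≤ C * Real.exp (-(k * t)) := by
  obtain ⟨C₀, hC₀, hmom, hA⟩ := basis hβ hR
  obtain ⟨C₁, hC₁, hvar⟩ := var_rate hβ hR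
  obtain ⟨D, hD⟩ : ∃ D, D = (β ^ 2 / 2 + 18 * C₀) + C₁ := ⟨_, rfl⟩
  have hD0 : 0 < D := by rw [hD]; positivity
  have he : 0 < Real.exp 1 := Real.exp_pos 1
  refine ⟨Real.exp 1 + 2, 1 / (4 * √D), by linarith, by positivity, fun n hn t ht => ?_⟩
  have hn1 : (1 : ℝ) ≤ n := by exact_mod_cast hn
  have hn0 : (0 : ℝ) < n := by linarith
  have hl0 : 0 ≤ Real.log n := Real.log_nonneg hn1
  obtain ⟨A, hA1, hA6, hAn, hMA, hA2⟩ := hA n hn
  obtain ⟨L, hL⟩ : ∃ L, L = 1 + Real.log n := ⟨_, rfl⟩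
  have hL1 : 1 ≤ L := by linarith
  have hL0 : 0 < L := by linarith
  have hprob : IsProbabilityMeasure (disorder n) := by unfold disorder; infer_instance
  obtain ⟨T, hT⟩ : ∃ T, T = (n : ℝ) ^ (11 / 13 : ℝ) * L ^ 3 := ⟨_, rfl⟩
  have hT0 : 0 < T := by rw [hT]; positivity
  have hsT : √T = (n : ℝ) ^ (11 / 26 : ℝ) * L ^ (3 / 2 : ℝ) := by
    rw [hT, Real.sqrt_eq_rpow, Real.mul_rpow (by positivity) (by positivity),
      ← Real.rpow_mul hn0.le, ← Real.rpow_natCast, ← Real.rpow_mul hL0.le]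
    norm_num
  have hV1 : (β ^ 2 / 2 + 18 * C₀) * ((n : ℝ) ^ (1 / 5 : ℝ) * A ^ (4 / 5 : ℝ)) *
      (1 + Real.log n) ≤ D * T := by
    have h2 : A ^ (4 / 5 : ℝ) ≤ ((n : ℝ) ^ (21 / 26 : ℝ) * (1 + Real.log n) ^ 2) ^ (4 / 5 : ℝ) :=
      Real.rpow_le_rpow (by linarith) hA2 (by norm_num)
    have h3 := rpow_bound hn1 hL1
    rw [← hL] at h2 ⊢
    have h4 : (n : ℝ) ^ (1 / 5 : ℝ) * A ^ (4 / 5 : ℝ) ≤ (n : ℝ) ^ (11 / 13 : ℝ) * L ^ 2 :=
      (mul_le_mul_of_nonneg_left h2 (by positivity)).trans h3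
    have hK0 : 0 ≤ β ^ 2 / 2 + 18 * C₀ := by positivity
    calc (β ^ 2 / 2 + 18 * C₀) * ((n : ℝ) ^ (1 / 5 : ℝ) * A ^ (4 / 5 : ℝ)) * L ≤
          (β ^ 2 / 2 + 18 * C₀) * ((n : ℝ) ^ (11 / 13 : ℝ) * L ^ 2) * L := by gcongr
      _ = (β ^ 2 / 2 + 18 * C₀) * T := by rw [hT]; ring
      _ ≤ D * T := mul_le_mul_of_nonneg_right (by rw [hD]; linarith) hT0.le
  have hV2 : Var[freeEnergy n β; disorder n] ≤ D * T := by
    refine (hvar n hn).2.trans ?_
    rw [← hL]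
    calc C₁ * (n : ℝ) ^ (11 / 13 : ℝ) * L ^ 3 = C₁ * T := by rw [hT]; ring
      _ ≤ D * T := mul_le_mul_of_nonneg_right (by rw [hD]; nlinarith [sq_nonneg β]) hT0.le
  have hDT : 0 < D * T := by positivity
  have hsD : 0 < √D := Real.sqrt_pos.2 hD0
  have h3 := up_A hC₀ hn (hmom n hn) hA1 hA6 hAn hMA hV1 (t := t / √D) (by positivity)
  have h4 := dn_A hDT hV2 (t := t / √D) (by positivity)
  have e : t / √D * √(D * T) = t * ((n : ℝ) ^ (11 / 26 : ℝ) * L ^ (3 / 2 : ℝ)) := by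
    rw [Real.sqrt_mul hD0.le, hsT]
    field_simp
  rw [e] at h3 h4
  rw [← hL]
  obtain ⟨E, hE⟩ : ∃ E, E = ∫ g, freeEnergy n β g ∂(disorder n) := ⟨_, rfl⟩
  rw [← hE] at h3 h4 ⊢
  obtain ⟨s, hs⟩ : ∃ s, s = t * ((n : ℝ) ^ (11 / 26 : ℝ) * L ^ (3 / 2 : ℝ)) := ⟨_, rfl⟩
  rw [← hs] at h3 h4 ⊢
  have hsub : {g | s ≤ |freeEnergy n β g - E|} ⊆
      {g | E + s ≤ freeEnergy n β g} ∪ {g | freeEnergy n β g ≤ E - s} := by
    intro g hg
    have hg' : s ≤ |freeEnergy n β g - E| := hg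
    rcases le_abs.1 hg' with h | h
    · left
      show E + s ≤ freeEnergy n β g
      linarith
    · right
      show freeEnergy n β g ≤ E - s
      linarith
  refine (measureReal_mono hsub).trans ((measureReal_union_le _ _).trans ?_)
  have hk : 0 ≤ t / √D := by positivity
  have h5 : Real.exp (1 - t / √D) ≤ Real.exp 1 * Real.exp (-(1 / (4 * √D) * t)) := by
    rw [← Real.exp_add]
    refine Real.exp_le_exp.2 ?_
    have e1 : 1 / (4 * √D) * t = (t / √D) / 4 := by field_simp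
    rw [e1]
    linarith
  have h6 : 2 * Real.exp (-(t / √D / 4)) = 2 * Real.exp (-(1 / (4 * √D) * t)) := by
    congr 3
    field_simp
  calc _ ≤ Real.exp (1 - t / √D) + 2 * Real.exp (-(t / √D / 4)) := add_le_add h3 h4
    _ ≤ Real.exp 1 * Real.exp (-(1 / (4 * √D) * t)) + 2 * Real.exp (-(1 / (4 * √D) * t)) := by
        rw [h6]; exact add_le_add h5 le_rfl
    _ = _ := by ring

/-- **The lower tail.** -/
theorem low_dev {β : ℝ} (hβ : 1 ≤ β) (hR : MR β) : ∃ k : ℝ, 0 < k ∧ ∀ n : ℕ, 1 ≤ n →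
    ∀ t : ℝ, 0 ≤ t →
    (disorder n).real {g | freeEnergy n β g ≤ ∫ g, freeEnergy n β g ∂(disorder n) - t} ≤
      Real.exp (-(k * t ^ 2 / ((n : ℝ) ^ (12 / 13 : ℝ) * (1 + Real.log n) ^ (3 / 2 : ℝ)))) := by
  obtain ⟨C, hC1, hC⟩ := var_rate hβ hR
  have hβ0 : 0 < β := by linarith
  have hC0 : 0 < C := by linarith
  obtain ⟨D, hD⟩ : ∃ D, D = √(C * β ^ 2 / 2) := ⟨_, rfl⟩
  have hDpos : 0 < D := by rw [hD]; exact Real.sqrt_pos.2 (by positivity)
  refine ⟨1 / (8 * D), by positivity, fun n hn t ht => ?_⟩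
  have hn1 : (1 : ℝ) ≤ n := by exact_mod_cast hn
  have hn0 : (0 : ℝ) < n := by linarith
  have hl0 : 0 ≤ Real.log n := Real.log_nonneg hn1
  obtain ⟨L, hL⟩ : ∃ L, L = 1 + Real.log n := ⟨_, rfl⟩
  have hL0 : 0 < L := by linarith
  have hvar := (hC n hn).2
  rw [← hL] at hvar ⊢
  have hVpos : 0 < C * (n : ℝ) ^ (11 / 13 : ℝ) * L ^ 3 := by positivity
  have h := Vale.Agent.P146.Lt.sk_low hβ0 hn hVpos hvar ht
  refine h.trans (Real.exp_le_exp.2 (neg_le_neg ?_))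
  obtain ⟨S, hS⟩ : ∃ S, S = (n : ℝ) ^ (12 / 13 : ℝ) * L ^ (3 / 2 : ℝ) := ⟨_, rfl⟩
  have hS0 : 0 < S := by rw [hS]; positivity
  have hSS : S ^ 2 = ((n : ℝ) ^ (11 / 13 : ℝ) * n) * L ^ 3 := by
    rw [hS, mul_pow, ← Real.rpow_natCast, ← Real.rpow_natCast (L ^ (3 / 2 : ℝ)),
      ← Real.rpow_mul hn0.le, ← Real.rpow_mul hL0.le, ← Real.rpow_add_one hn0.ne',
      ← Real.rpow_natCast L 3]
    norm_num
  have hsq : √(C * (n : ℝ) ^ (11 / 13 : ℝ) * L ^ 3 * (β ^ 2 * n / 2)) = D * S := by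
    have e3 : D ^ 2 = C * β ^ 2 / 2 := by rw [hD]; exact Real.sq_sqrt (by positivity)
    have e2 : C * (n : ℝ) ^ (11 / 13 : ℝ) * L ^ 3 * (β ^ 2 * n / 2) = (D * S) ^ 2 := by
      rw [mul_pow, e3, hSS]
      ring
    rw [e2]
    exact Real.sqrt_sq (by positivity)
  rw [hsq, ← hS]
  refine le_of_eq ?_
  field_simp

/-- **Order.** -/
theorem order_rate2 {β : ℝ} (hβ : 1 < β) (hR : MR β) : ∃ C : ℝ, 1 ≤ C ∧ ∀ n : ℕ, 1 ≤ n →
    (1 - 1 / β) ^ 2 - C * (n : ℝ) ^ (-(5 / 52) : ℝ) * (1 + Real.log n) ≤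
      crossOverlap n β 1 := by
  obtain ⟨C₂, hC₂, hlo⟩ := hR
  refine ⟨4 + 2 * C₂, by linarith, fun n hn => ?_⟩
  have hβ0 : 0 < β := by linarith
  have hn1 : (1 : ℝ) ≤ n := by exact_mod_cast hn
  have hn0 : (0 : ℝ) < n := by linarith
  have hl0 : 0 ≤ Real.log n := Real.log_nonneg hn1
  obtain ⟨L, hL⟩ : ∃ L, L = 1 + Real.log n := ⟨_, rfl⟩
  have hL1 : 1 ≤ L := by linarith
  obtain ⟨δ, hδ⟩ : ∃ δ, δ = (n : ℝ) ^ (-(5 / 52) : ℝ) * L := ⟨_, rfl⟩
  have hδ0 : 0 < δ := by rw [hδ]; positivity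
  have hδn : (n : ℝ) ^ (21 / 26 : ℝ) * L ^ 2 = n * δ ^ 2 := by
    rw [hδ, mul_pow, ← Real.rpow_natCast ((n : ℝ) ^ (-(5 / 52) : ℝ)), ← Real.rpow_mul hn0.le,
      ← mul_assoc]
    congr 1
    nth_rewrite 2 [← Real.rpow_one (n : ℝ)]
    rw [← Real.rpow_add hn0]
    norm_num
  obtain ⟨-, -, -, hup, -⟩ := Sx.rt_moment (show 1 ≤ β + δ by linarith)
  have h1 := mean_tangent n β hn hβ0 (β + δ)
  have h2 := hup n hn
  have h3 := hlo n hn
  have h4 := parisi_incr hβ (show β ≤ β + δ by linarith)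
  have h5 := order_alg hβ hδ0
  have h6 : Sx.pv (β + δ) ≤ Sx.pv β + δ * β / 2 * (1 - (1 - 1 / β) ^ 2 + 4 * δ) := by
    unfold Sx.pv
    linarith
  have h7 := mul_le_mul_of_nonneg_left h6 hn0.le
  rw [← hL, mul_assoc C₂, hδn] at h3
  obtain ⟨R, hR⟩ : ∃ R, R = crossOverlap n β 1 := ⟨_, rfl⟩
  rw [← hL, mul_assoc (4 + 2 * C₂), ← hδ, ← hR]
  rw [← hR] at h1
  have h8 : (n * δ * β / 2) * (1 - R) ≤
      (n * δ * β / 2) * (1 - (1 - 1 / β) ^ 2 + 4 * δ + 2 * C₂ * δ) := by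
    have h9 : C₂ * (n * δ ^ 2) ≤ (n * δ * β / 2) * (2 * C₂ * δ) := by
      have h10 : 0 ≤ n * δ * (C₂ * δ) := by positivity
      have e : (n * δ * β / 2) * (2 * C₂ * δ) = β * (n * δ * (C₂ * δ)) := by ring
      have e' : C₂ * (n * δ ^ 2) = 1 * (n * δ * (C₂ * δ)) := by ring
      rw [e, e']
      exact mul_le_mul_of_nonneg_right hβ.le h10
    have e1 : (β + δ - β) * (β * n / 2) * (1 - R) = (n * δ * β / 2) * (1 - R) := by ring
    rw [e1] at h1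
    have e2 : (n : ℝ) * (Sx.pv β + δ * β / 2 * (1 - (1 - 1 / β) ^ 2 + 4 * δ)) =
        n * Sx.pv β + (n * δ * β / 2) * (1 - (1 - 1 / β) ^ 2 + 4 * δ) := by ring
    rw [e2] at h7
    have e3 : (n * δ * β / 2) * (1 - (1 - 1 / β) ^ 2 + 4 * δ + 2 * C₂ * δ) =
        (n * δ * β / 2) * (1 - (1 - 1 / β) ^ 2 + 4 * δ) +
          (n * δ * β / 2) * (2 * C₂ * δ) := by ring
    rw [e3]
    linarith
  have h11 := le_of_mul_le_mul_left h8 (by positivity)
  have e4 : (4 + 2 * C₂) * δ = 4 * δ + 2 * C₂ * δ := by ring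
  rw [e4]
  linarith

end Vale.Agent.P146.Tb
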