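import Vale.Agent.P146.R3.H49.Stp2
import Vale.Agent.P146.R3.H501.Trf
import Vale.Agent.P146.R3.H749.Rate
import Vale.Agent.P146.R3.H453.Num3

set_option linter.all false

/-!
P146, R7: the rate with free parameters, unconditionally, and the rate of the mean.
-/

open MeasureTheory ProbabilityTheory Filter Topology

namespace Vale.Agent.P146.Tb

open Vale.Agent.P157 Vale.Agent.P157.Lv Vale.Agent.P157.Lv.Sy Vale.Agent.P157.Lv.Fld
open Vale.Agent.P157.Par (Path Exponents incr spinPart)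
open Vale.Agent.P146 (Pair freeEnergy disorder)
open Vale.Agent.P146.Sk (PSK)
open Vale.Agent.P146.Ub Vale.Agent.P146.Ub.Ld

theorem gstep2 {β : ℝ} (hβ : 0 ≤ β) (K d : ℕ) (hd1 : 1 ≤ d) (hd : d ≤ K) :
    Vale.Agent.P146.R3.A.GStep2 K d β := by
  intro n N s hN h0 σ hσ hσ1 hs hs0 t ht htN
  have hsp : ∀ l ≤ K, 0 ≤ s l := fun l hl => by
    rcases lt_or_ge l d with h | h
    · rw [hs0 l h]
    · exact hσ.le.trans (hs l h hl)
  have hF := SN_fld (n := n) (K := K) (m := me K) (N := N) (β := β) (s := s) hd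
    (Nat.le_of_succ_le hN) h0 (me_exp K) hsp
  have hlast : stR (SN n K d (me K) β N s) (ph (Nat.le_of_succ_le hN)) K = 1 :=
    stR_last (SN n K d (me K) β N s) (ph (Nat.le_of_succ_le hN))
  exact Vale.Agent.P146.R3.H49.Stp.gstep2_tr hd1 hd hN h0 hβ hσ hσ1 hs hs0 ht htN
    fun θ j _ _ => Vale.Agent.P146.Ub.Ld.H501.trf_hz hd hN h0 (me_exp K) (ct_path (st_path hF))
      (by rw [ct_ge hd, hlast]) θ j _

/-- **The rate with free parameters.** -/
theorem gr {β : ℝ} (hβ : 0 ≤ β) : GR β :=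
  Vale.Agent.P146.R3.A.grate2_of fun K d hd1 hd => gstep2 hβ K d hd1 hd

/-- **The rate of the mean.** -/
theorem mr {β : ℝ} (hβ : 1 ≤ β) : MR β := mean_rate hβ (gr (by linarith))

end Vale.Agent.P146.Tb
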