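import Vale.Agent.P146.R3.H453.TiltMain

set_option linter.all false

/-!
P146, R7 (B): for the Sherrington-Kirkpatrick model, with `M = n p - E F`,
`M ≤ 2 (n p - φ(ρ)) + C n ρ⁵ (1 + log n)⁵ + C` for `0 < ρ ≤ 1 / (16 (1 + log n))`.
-/

open MeasureTheory ProbabilityTheory Filter Topology

namespace Vale.Agent.P146.Tb

open Vale.Agent.P157 Vale.Agent.P157.Lv Vale.Agent.P157.Lv.Sy
open Vale.Agent.P146

lemma FF_ska (n : ℕ) (β : ℝ) (g : Pair n → ℝ) : FF (ska n β) g = freeEnergy n β g := by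
  unfold FF freeEnergy partitionFn
  congr 1
  refine Finset.sum_congr rfl fun σ _ => ?_
  rw [ska_sum]

lemma ska_sq (n : ℕ) (β : ℝ) (σ : Fin n → ℤˣ) : ∑ p, ska n β σ p ^ 2 ≤ β ^ 2 * n / 2 := by
  rcases Nat.eq_zero_or_pos n with hn | hn
  · subst hn
    have : IsEmpty (Pair 0) := ⟨fun p => p.1.1.elim0⟩
    simp
  · have hn0 : (0 : ℝ) < n := by exact_mod_cast hn
    have h1 : ∀ p, ska n β σ p ^ 2 ≤ β ^ 2 / n := by
      intro p
      unfold ska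
      rw [mul_pow, div_pow, Real.sq_sqrt hn0.le]
      have h2 : chi (ps p) σ ^ 2 ≤ 1 := by
        rw [← sq_abs]
        exact pow_le_one₀ (abs_nonneg _) (abs_chi _ σ).le
      exact mul_le_of_le_one_right (by positivity) h2
    refine (Finset.sum_le_sum fun p _ => h1 p).trans ?_
    rw [Finset.sum_const, nsmul_eq_mul, Finset.card_univ]
    have h3 : (Fintype.card (Pair n) : ℝ) ≤ (n : ℝ) ^ 2 / 2 :=
      Vale.Agent.P146.Ub.Cv.card_pair_le n
    calc (Fintype.card (Pair n) : ℝ) * (β ^ 2 / n) ≤ (n : ℝ) ^ 2 / 2 * (β ^ 2 / n) :=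
          mul_le_mul_of_nonneg_right h3 (by positivity)
      _ = β ^ 2 * n / 2 := by field_simp

/-- the difference `φ(ρ) - E F` for the free energy -/
theorem sk_sub_le (n : ℕ) (β : ℝ) {ρ : ℝ} (h0 : 0 < ρ) (h1 : ρ < 1) {x : ℝ} (hx : 0 < x) {t₀ : ℝ}
    (ht : 0 < t₀) (ht1 : t₀ ≤ Real.pi / 2) :
    1 / ρ * Real.log (∫ g, Real.exp (ρ * freeEnergy n β g) ∂(disorder n)) -
      ∫ g, freeEnergy n β g ∂(disorder n) ≤
      ρ * (β ^ 2 * n / 2) * t₀ ^ 2 / 2 + ρ * (2 / x ^ 2 *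
        (Real.log (∫ g, Real.exp ((ρ + x) * freeEnergy n β g) ∂(disorder n)) -
          (ρ + x) * ∫ g, freeEnergy n β g ∂(disorder n))) * (-Real.log (Real.sin t₀)) := by
  have h := phi_sub_le h0 h1 (ska n β) (ska_sq n β) hx ht ht1
  simp only [FF_ska] at h
  exact h

/-- the numbers -/
lemma mean_num {N L ρ x P E W Φ C lg B : ℝ} (hN : 0 < N) (hL : 1 ≤ L) (h0 : 0 < ρ)
    (hρ1 : ρ ≤ 1) (hC : 0 ≤ C) (hx : x = 8 * ρ * L) (hE : E ≤ P) (hlg0 : 0 ≤ lg) (hlg : lg ≤ L)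
    (hB : 0 ≤ B) (hW : W ≤ (ρ + x) * P + C * N * (ρ + x) ^ 6)
    (h : Φ - E ≤ ρ * (B * N / 2) * (1 / N) / 2 + ρ * (2 / x ^ 2 * (W - (ρ + x) * E)) * lg) :
    P - E ≤ 2 * (P - Φ) + 33216 * C * N * ρ ^ 5 * L ^ 5 + B / 2 := by
  have hL0 : 0 < L := by linarith
  obtain ⟨y, hy⟩ : ∃ y, y = ρ * L := ⟨_, rfl⟩
  have hy0 : 0 < y := by rw [hy]; positivity
  have hx' : x = 8 * y := by rw [hx, hy]; ring
  have hx0 : 0 < x := by rw [hx']; positivity
  obtain ⟨M, hM⟩ : ∃ M, M = P - E := ⟨_, rfl⟩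
  have hM0 : 0 ≤ M := by linarith
  have hρy : ρ ≤ y := by rw [hy]; exact le_mul_of_one_le_right h0.le hL
  have hrx : ρ + x ≤ 9 * y := by rw [hx']; linarith
  have hrx0 : 0 ≤ ρ + x := by linarith
  -- the constant `A`
  have e1 : W - (ρ + x) * E ≤ (9 * y) * M + C * N * (9 * y) ^ 6 := by
    have e2 : (ρ + x) * M ≤ (9 * y) * M := mul_le_mul_of_nonneg_right hrx hM0
    have e3 : (ρ + x) ^ 6 ≤ (9 * y) ^ 6 := pow_le_pow_left₀ hrx0 hrx 6
    have e4 := mul_le_mul_of_nonneg_left e3 (mul_nonneg hC hN.le)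
    have e5 : (ρ + x) * M = (ρ + x) * P - (ρ + x) * E := by rw [hM]; ring
    linarith
  have hK0 : 0 ≤ C * N * y ^ 4 := mul_nonneg (mul_nonneg hC hN.le) (pow_nonneg hy0.le 4)
  have hA : 2 / x ^ 2 * (W - (ρ + x) * E) ≤ 9 / (32 * y) * M + 16608 * (C * N * y ^ 4) := by
    refine (mul_le_mul_of_nonneg_left e1 (by positivity)).trans ?_
    have e7 : 2 / x ^ 2 * ((9 * y) * M + C * N * (9 * y) ^ 6) =
        9 / (32 * y) * M + 531441 / 32 * (C * N * y ^ 4) := by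
      rw [hx']
      field_simp
      ring
    rw [e7]
    linarith
  have hA0 : 0 ≤ 9 / (32 * y) * M + 16608 * (C * N * y ^ 4) := by positivity
  have h2 : ρ * (2 / x ^ 2 * (W - (ρ + x) * E)) * lg ≤
      9 / 32 * M + 16608 * (C * N * ρ ^ 5 * L ^ 5) := by
    have e1 : ρ * (2 / x ^ 2 * (W - (ρ + x) * E)) * lg ≤
        ρ * (9 / (32 * y) * M + 16608 * (C * N * y ^ 4)) * L :=
      (mul_le_mul_of_nonneg_right (mul_le_mul_of_nonneg_left hA h0.le) hlg0).trans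
        (mul_le_mul_of_nonneg_left hlg (mul_nonneg h0.le hA0))
    refine e1.trans (le_of_eq ?_)
    have e2 : ρ * (9 / (32 * y) * M + 16608 * (C * N * y ^ 4)) * L =
        9 / 32 * M * ((ρ * L) / y) + 16608 * (C * N * y ^ 4) * (ρ * L) := by
      field_simp
    rw [e2, ← hy, div_self hy0.ne', hy]
    ring
  have h3 : ρ * (B * N / 2) * (1 / N) / 2 ≤ B / 4 := by
    have e2 : ρ * (B * N / 2) * (1 / N) / 2 = ρ * (B / 4) := by field_simp; ring
    rw [e2]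
    exact mul_le_of_le_one_left (by positivity) hρ1
  have h4 : 0 ≤ C * N * ρ ^ 5 * L ^ 5 := by positivity
  have e9 : 33216 * C * N * ρ ^ 5 * L ^ 5 = 33216 * (C * N * ρ ^ 5 * L ^ 5) := by ring
  rw [e9]
  rw [hM] at h2 hM0
  linarith

/-- **The mean through one small exponential moment.** -/
theorem mean_le {n : ℕ} (hn : 1 ≤ n) (β : ℝ) {P C : ℝ} (hC : 0 ≤ C)
    (hmom : ∀ x : ℝ, 0 < x → x ≤ 1 →
      Real.log (∫ g, Real.exp (x * freeEnergy n β g) ∂(disorder n)) ≤ x * P + C * n * x ^ 6)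
    (hup : ∫ g, freeEnergy n β g ∂(disorder n) ≤ P) {ρ : ℝ} (h0 : 0 < ρ)
    (h1 : ρ ≤ 1 / (16 * (1 + Real.log n))) :
    P - ∫ g, freeEnergy n β g ∂(disorder n) ≤
      2 * (P - 1 / ρ * Real.log (∫ g, Real.exp (ρ * freeEnergy n β g) ∂(disorder n))) +
        33216 * C * n * ρ ^ 5 * (1 + Real.log n) ^ 5 + β ^ 2 / 2 := by
  have hn1 : (1 : ℝ) ≤ n := by exact_mod_cast hn
  have hn0 : (0 : ℝ) < n := by linarith
  have hl0 : 0 ≤ Real.log n := Real.log_nonneg hn1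
  obtain ⟨L, hL⟩ : ∃ L, L = 1 + Real.log n := ⟨_, rfl⟩
  rw [← hL] at h1 ⊢
  have hL1 : 1 ≤ L := by linarith
  have hL0 : 0 < L := by linarith
  have hρL : ρ * L ≤ 1 / 16 := by
    rw [le_div_iff₀ (by positivity)] at h1
    linarith
  have hρy : ρ ≤ ρ * L := le_mul_of_one_le_right h0.le hL1
  have hρ2 : ρ < 1 := by linarith
  obtain ⟨x, hx⟩ : ∃ x, x = 8 * ρ * L := ⟨_, rfl⟩
  have hx0 : 0 < x := by rw [hx]; positivity
  have hx1 : ρ + x ≤ 1 := by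
    have : x = 8 * (ρ * L) := by rw [hx]; ring
    linarith
  have hs0 : 0 < Real.sqrt n := Real.sqrt_pos.2 hn0
  have hs1 : 1 ≤ Real.sqrt n := Real.one_le_sqrt.2 hn1
  obtain ⟨t₀, ht⟩ : ∃ t₀, t₀ = 1 / Real.sqrt n := ⟨_, rfl⟩
  have ht0 : 0 < t₀ := by rw [ht]; positivity
  have ht1 : t₀ ≤ 1 := by rw [ht, div_le_one hs0]; exact hs1
  have ht2 : t₀ ^ 2 = 1 / n := by rw [ht, div_pow, one_pow, Real.sq_sqrt hn0.le]
  have hpi := Real.two_le_pi
  have h := sk_sub_le n β h0 hρ2 hx0 ht0 (by linarith)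
  rw [ht2] at h
  -- the logarithm
  have hlog : -Real.log (Real.sin t₀) ≤ L := by
    have h2 : t₀ / 2 ≤ Real.sin t₀ := by
      have h3 := Real.sin_gt_sub_cube ht0
      have h4 : t₀ ^ 3 ≤ t₀ := pow_le_of_le_one ht0.le ht1 (by norm_num)
      linarith
    have h3 := Real.log_le_log (by positivity) h2
    have h4 : Real.log (t₀ / 2) = -(Real.log n / 2) - Real.log 2 := by
      rw [Real.log_div ht0.ne' (by norm_num), ht, Real.log_div one_ne_zero hs0.ne', Real.log_one,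
        Real.log_sqrt hn0.le]
      ring
    have h5 := Real.log_two_lt_d9
    rw [h4] at h3
    linarith
  have hlog0 : 0 ≤ -Real.log (Real.sin t₀) := by
    have h3 : 0 < Real.sin t₀ := Real.sin_pos_of_pos_of_lt_pi ht0 (by linarith)
    have := Real.log_nonpos h3.le (Real.sin_le_one _)
    linarith
  exact mean_num hn0 hL1 h0 hρ2.le hC hx hup hlog0 hlog (sq_nonneg β) (hmom _ (by linarith) hx1) h

end Vale.Agent.P146.Tb
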