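import Vale.Agent.P146.Bd5.B2
import Vale.Agent.P146.R3.H453.TiltSK

set_option linter.all false

/-!
P146, R7: from the rate with free parameters (`GR`) and (B) to `M ≤ C n^(21/26) (1 + log n)²`.
-/

open MeasureTheory ProbabilityTheory Filter Topology

namespace Vale.Agent.P146.Tb

open Vale.Agent.P157.Par (Path Exponents)
open Vale.Agent.P146.Sk (PSK)
open Vale.Agent.P146.Ub Vale.Agent.P146.Sx

/-- The rate with free parameters. -/
def GR (β : ℝ) : Prop := ∃ C : ℝ, 0 ≤ C ∧ ∀ (K d : ℕ) (Lb : ℝ),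
    1 ≤ d → d ≤ K →
    (∀ q : ℕ → ℝ, Path K q → q K ≤ 1 → (∀ l < d, q l = 0) → Lb ≤ PSK β K (me K) q) →
    ∀ n : ℕ, 1 ≤ n → ∀ σ : ℝ, 0 < σ → σ ≤ 1 → 1 ≤ σ * me K d * n →
      n * (Real.log 2 + Lb) ≤
        1 / me K d * Real.log (∫ g, Real.exp (me K d * freeEnergy n β g) ∂(disorder n)) +
          C * (1 + Real.log ((K : ℝ) + 1)) *
            (n / ((K : ℝ) + 1) + √(((K : ℝ) + 1) * n / me K d) / σ + n * ((K : ℝ) + 1) * σ ^ 2) +
          C * (1 + Real.log n)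

lemma me_eq (K d : ℕ) : me K d = d / ((K : ℝ) + 1) := by
  unfold me
  push_cast
  rfl

lemma sig_num {l d n w : ℝ} (hl : 0 < l) (hd : 0 < d) (hn : 0 < n) (hw : 0 < w)
    (h : w ^ 6 = d * n) :
    √(l * n / (d / l)) / (1 / w) + n * l * (1 / w) ^ 2 = 2 * (l * w ^ 4 / d) := by
  have e1 : l * n / (d / l) = (l * w ^ 3 / d) ^ 2 := by
    have : (l * w ^ 3 / d) ^ 2 = l ^ 2 * w ^ 6 / d ^ 2 := by ring
    rw [this, h]
    field_simp
  rw [e1, Real.sqrt_sq (by positivity)]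
  have e2 : n = w ^ 6 / d := by rw [h]; field_simp
  rw [e2]
  field_simp
  ring

/-- the rate with the best width -/
theorem gr_w {β : ℝ} (h : GR β) : ∃ C : ℝ, 0 ≤ C ∧ ∀ (K d : ℕ) (Lb : ℝ), 1 ≤ d → d ≤ K →
    (∀ q : ℕ → ℝ, Path K q → q K ≤ 1 → (∀ l < d, q l = 0) → Lb ≤ PSK β K (me K) q) →
    ∀ n : ℕ, 1 ≤ n → ∀ w : ℝ, 0 < w → w ^ 6 = d * n → (K : ℝ) + 1 ≤ w ^ 5 →
      n * (Real.log 2 + Lb) ≤
        1 / me K d * Real.log (∫ g, Real.exp (me K d * freeEnergy n β g) ∂(disorder n)) +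
          C * (1 + Real.log ((K : ℝ) + 1)) *
            (n / ((K : ℝ) + 1) + 2 * (((K : ℝ) + 1) * w ^ 4 / d)) + C * (1 + Real.log n) := by
  obtain ⟨C, hC, h1⟩ := h
  refine ⟨C, hC, fun K d Lb hd hdK hLb n hn w hw hw6 hw5 => ?_⟩
  have hd0 : (0 : ℝ) < d := by exact_mod_cast hd
  have hd1 : (1 : ℝ) ≤ d := by exact_mod_cast hd
  have hn1 : (1 : ℝ) ≤ n := by exact_mod_cast hn
  have hn0 : (0 : ℝ) < n := by linarith
  have hl0 : (0 : ℝ) < (K : ℝ) + 1 := by positivity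
  have hw1 : 1 ≤ w := by
    have h2 : 1 ≤ w ^ 6 := by rw [hw6]; nlinarith
    by_contra hcon
    push Not at hcon
    have := pow_lt_one₀ hw.le hcon (n := 6) (by norm_num)
    linarith
  have h2 := h1 K d Lb hd hdK hLb n hn (1 / w) (by positivity)
    (by rw [div_le_one hw]; exact hw1) (by
      rw [me_eq]
      have e : 1 / w * (d / ((K : ℝ) + 1)) * n = (d * n) / (w * ((K : ℝ) + 1)) := by field_simp
      rw [e, ← hw6, le_div_iff₀ (by positivity), one_mul]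
      calc w * ((K : ℝ) + 1) ≤ w * w ^ 5 := mul_le_mul_of_nonneg_left hw5 hw.le
        _ = w ^ 6 := by ring)
  have h3 := sig_num hl0 hd0 hn0 hw hw6
  have e : (n : ℝ) / ((K : ℝ) + 1) + √(((K : ℝ) + 1) * n / me K d) / (1 / w) +
      n * ((K : ℝ) + 1) * (1 / w) ^ 2 =
      n / ((K : ℝ) + 1) + 2 * (((K : ℝ) + 1) * w ^ 4 / d) := by
    rw [me_eq, add_assoc, h3]
  rw [e] at h2
  exact h2

/-- the numbers of the choice `K + 1 = a⁵ c`, `d = a⁴` -/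
lemma choice_num {a c n w L : ℝ} (ha : 2 ≤ a) (hn0 : 0 < n) (h1 : a ^ 26 ≤ n)
    (h2 : n ≤ (a + 1) ^ 26) (hw : 0 < w) (hw6 : w ^ 6 = a ^ 4 * n)
    (hL : L = 1 + Real.log n) (hc1 : 16 * L ≤ c) (hc2 : c ≤ 16 * L + 1) :
    a ^ 5 * c ≤ w ^ 5 ∧ n / (a ^ 5 * c) + 2 * (a ^ 5 * c * w ^ 4 / a ^ 4) ≤
      82000 * L * a ^ 21 ∧ Real.log (a ^ 5 * c) ≤ Real.log n ∧ c ≤ 17 * L ∧ 1 ≤ c ∧
      n * (1 / (a * c)) ^ 5 * L ^ 5 ≤ a ^ 21 := by
  have ha0 : 0 < a := by linarith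
  have ha1 : 1 ≤ a := by linarith
  have h26 : (1 : ℝ) ≤ a ^ 26 := one_le_pow₀ ha1
  have hn1 : 1 ≤ n := h26.trans h1
  have hlog0 : 0 ≤ Real.log n := Real.log_nonneg hn1
  have hL1 : 1 ≤ L := by linarith
  have hc0 : 1 ≤ c := by linarith
  have hc17 : c ≤ 17 * L := by linarith
  -- the size of `c`
  have hlogn : Real.log n ≤ 26 * a := by
    have h3 := Real.log_le_log hn0 h2
    rw [Real.log_pow] at h3
    have h4 := Real.log_le_sub_one_of_pos (show 0 < a + 1 by linarith)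
    push_cast at h3
    linarith
  have hca : c ≤ a ^ 10 := by
    have h3 : c ≤ 512 * a := by linarith
    have h4 : (512 : ℝ) ≤ a ^ 9 := by
      have := pow_le_pow_left₀ (by norm_num) ha 9
      norm_num at this
      exact this
    calc c ≤ 512 * a := h3
      _ ≤ a ^ 9 * a := mul_le_mul_of_nonneg_right h4 ha0.le
      _ = a ^ 10 := by ring
  -- the size of `n`
  have hn2 : n ≤ 37877 * a ^ 26 := by
    have h3 : a + 1 ≤ 3 / 2 * a := by linarith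
    have h4 := pow_le_pow_left₀ (by linarith) h3 26
    have h5 : (3 / 2 * a) ^ 26 = (3 / 2) ^ 26 * a ^ 26 := by ring
    have h6 : ((3 : ℝ) / 2) ^ 26 ≤ 37877 := by norm_num
    rw [h5] at h4
    exact h2.trans (h4.trans (mul_le_mul_of_nonneg_right h6 (by positivity)))
  -- the size of `w`
  have hw5 : a ^ 5 ≤ w := by
    refine le_of_pow_le_pow_left₀ (n := 6) (by norm_num) hw.le ?_
    rw [hw6]
    calc (a ^ 5) ^ 6 = a ^ 4 * a ^ 26 := by ring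
      _ ≤ a ^ 4 * n := mul_le_mul_of_nonneg_left h1 (by positivity)
  have hw6' : w ≤ 6 * a ^ 5 := by
    refine le_of_pow_le_pow_left₀ (n := 6) (by norm_num) (by positivity) ?_
    rw [hw6]
    calc a ^ 4 * n ≤ a ^ 4 * (37877 * a ^ 26) := mul_le_mul_of_nonneg_left hn2 (by positivity)
      _ = 37877 * a ^ 30 := by ring
      _ ≤ 46656 * a ^ 30 := by
        have : 0 ≤ a ^ 30 := by positivity
        linarith
      _ = (6 * a ^ 5) ^ 6 := by ring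
  have hlw : a ^ 5 * c ≤ w ^ 5 := by
    have h3 : (a ^ 5) ^ 5 ≤ w ^ 5 := pow_le_pow_left₀ (by positivity) hw5 5
    have h4 : a ^ 5 * c ≤ a ^ 5 * a ^ 10 := mul_le_mul_of_nonneg_left hca (by positivity)
    have h5 : a ^ 5 * a ^ 10 ≤ (a ^ 5) ^ 5 := by
      rw [← pow_add, ← pow_mul]
      exact pow_le_pow_right₀ ha1 (by norm_num)
    linarith
  refine ⟨hlw, ?_, ?_, hc17, hc0, ?_⟩
  · have h3 : n / (a ^ 5 * c) ≤ 37877 * a ^ 21 := by
      rw [div_le_iff₀ (by positivity)]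
      calc n ≤ 37877 * a ^ 26 := hn2
        _ = 37877 * a ^ 21 * (a ^ 5 * 1) := by ring
        _ ≤ 37877 * a ^ 21 * (a ^ 5 * c) := by gcongr
    have h4 : a ^ 5 * c * w ^ 4 / a ^ 4 ≤ 1296 * c * a ^ 21 := by
      rw [div_le_iff₀ (by positivity)]
      have h5 : w ^ 4 ≤ (6 * a ^ 5) ^ 4 := pow_le_pow_left₀ hw.le hw6' 4
      calc a ^ 5 * c * w ^ 4 ≤ a ^ 5 * c * (6 * a ^ 5) ^ 4 :=
            mul_le_mul_of_nonneg_left h5 (by positivity)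
        _ = 1296 * c * a ^ 21 * a ^ 4 := by ring
    have h5 : 0 ≤ a ^ 21 := by positivity
    have h6 : 1296 * c * a ^ 21 ≤ 1296 * (17 * L) * a ^ 21 := by gcongr
    have h7 : a ^ 21 ≤ L * a ^ 21 := le_mul_of_one_le_left h5 hL1
    have e : 82000 * L * a ^ 21 = 82000 * (L * a ^ 21) := by ring
    have e2 : 1296 * (17 * L) * a ^ 21 = 22032 * (L * a ^ 21) := by ring
    rw [e]
    rw [e2] at h6
    linarith
  · refine Real.log_le_log (by positivity) ?_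
    calc a ^ 5 * c ≤ a ^ 5 * a ^ 10 := mul_le_mul_of_nonneg_left hca (by positivity)
      _ = a ^ 15 := by ring
      _ ≤ a ^ 26 := pow_le_pow_right₀ ha1 (by norm_num)
      _ ≤ n := h1
  · have h3 : L / c ≤ 1 / 16 := by
      rw [div_le_iff₀ (by linarith)]
      linarith
    have h4 : (L / c) ^ 5 ≤ (1 / 16) ^ 5 := pow_le_pow_left₀ (by positivity) h3 5
    have e : n * (1 / (a * c)) ^ 5 * L ^ 5 = n / a ^ 5 * (L / c) ^ 5 := by
      field_simp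
    rw [e]
    have h5 : n / a ^ 5 ≤ 37877 * a ^ 21 := by
      rw [div_le_iff₀ (by positivity)]
      calc n ≤ 37877 * a ^ 26 := hn2
        _ = 37877 * a ^ 21 * a ^ 5 := by ring
    calc n / a ^ 5 * (L / c) ^ 5 ≤ 37877 * a ^ 21 * (1 / 16) ^ 5 :=
          mul_le_mul h5 h4 (by positivity) (by positivity)
      _ ≤ a ^ 21 := by
        have : 0 ≤ a ^ 21 := by positivity
        nlinarith

lemma small_n (N₀ : ℕ) (f : ℕ → ℝ) : ∃ C : ℝ, 0 ≤ C ∧ ∀ n < N₀, |f n| ≤ C :=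
  ⟨∑ n ∈ Finset.range N₀, |f n|, Finset.sum_nonneg fun i _ => abs_nonneg _, fun n hn =>
    Finset.single_le_sum (f := fun n : ℕ => |f n|) (fun i _ => abs_nonneg _)
      (Finset.mem_range.2 hn)⟩

/-- the last numbers -/
lemma mean_fin {C C₁ b M R1 R2 Y L T : ℝ} (hC : 0 ≤ C) (hC₁ : 0 ≤ C₁) (hb : 0 ≤ b)
    (hL : 1 ≤ L) (hT : T = Y * L ^ 2) (hY : 1 ≤ Y)
    (h1 : R1 ≤ C * (82000 * T)) (h2 : R2 ≤ Y)
    (h3 : M ≤ 2 * (R1 + C * L) + 33216 * C₁ * R2 + b / 2) :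
    M ≤ (164002 * C + 33216 * C₁ + b / 2) * T := by
  have hL2 : 1 ≤ L ^ 2 := one_le_pow₀ hL
  have hYT : Y ≤ T := by rw [hT]; exact le_mul_of_one_le_right (by linarith) hL2
  have hLT : L ≤ T := by
    rw [hT]
    calc L ≤ L ^ 2 := by nlinarith
      _ ≤ Y * L ^ 2 := le_mul_of_one_le_left (by positivity) hY
  have hT1 : 1 ≤ T := hY.trans hYT
  have e1 := mul_le_mul_of_nonneg_left hLT hC
  have e2 := mul_le_mul_of_nonneg_left (h2.trans hYT) (by linarith : 0 ≤ 33216 * C₁)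
  have e3 : b / 2 ≤ b / 2 * T := le_mul_of_one_le_right (by linarith) hT1
  have e : (164002 * C + 33216 * C₁ + b / 2) * T =
    2 * (C * (82000 * T) + C * T) + 33216 * C₁ * T + b / 2 * T := by ring
  rw [e]
  linarith

/-- the case of large `n` -/
theorem mean_big {β : ℝ} (hβ : 1 ≤ β) {C C₁ : ℝ} (hC0 : 0 ≤ C) (hC₁ : 0 ≤ C₁) {n : ℕ}
    (hn : 1 ≤ n)
    (hC : ∀ (K d : ℕ) (Lb : ℝ), 1 ≤ d → d ≤ K →
    (∀ q : ℕ → ℝ, Path K q → q K ≤ 1 → (∀ l < d, q l = 0) → Lb ≤ PSK β K (me K) q) →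
    ∀ w : ℝ, 0 < w → w ^ 6 = d * n → (K : ℝ) + 1 ≤ w ^ 5 →
      n * (Real.log 2 + Lb) ≤
        1 / me K d * Real.log (∫ g, Real.exp (me K d * freeEnergy n β g) ∂(disorder n)) +
          C * (1 + Real.log ((K : ℝ) + 1)) *
            (n / ((K : ℝ) + 1) + 2 * (((K : ℝ) + 1) * w ^ 4 / d)) + C * (1 + Real.log n))
    (hmom : ∀ x : ℝ, 0 < x → x ≤ 1 →
      Real.log (∫ g, Real.exp (x * freeEnergy n β g) ∂(disorder n)) ≤
        x * (n * pv β) + C₁ * n * x ^ 6)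
    (hup : ∫ g, freeEnergy n β g ∂(disorder n) ≤ n * pv β) {y L T : ℝ}
    (hL : L = 1 + Real.log n) (hy26 : y ^ 26 = n) (h2 : 2 ≤ y) (hT : T = y ^ 21 * L ^ 2) :
    n * pv β - ∫ g, freeEnergy n β g ∂(disorder n) ≤
      (164002 * C + 33216 * C₁ + β ^ 2 / 2) * T := by
  have hn1 : (1 : ℝ) ≤ n := by exact_mod_cast hn
  have hn0 : (0 : ℝ) < n := by linarith
  have hlog : 0 ≤ Real.log n := Real.log_nonneg hn1
  have hL1 : 1 ≤ L := by linarith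
  have hy0 : 0 < y := by linarith
  obtain ⟨a, ha⟩ : ∃ a : ℕ, a = ⌊y⌋₊ := ⟨_, rfl⟩
  have ha2 : 2 ≤ a := by rw [ha]; exact Nat.le_floor (by exact_mod_cast h2)
  have hay : (a : ℝ) ≤ y := by rw [ha]; exact Nat.floor_le hy0.le
  have hya : y < a + 1 := by rw [ha]; exact Nat.lt_floor_add_one y
  have ha2' : (2 : ℝ) ≤ a := by exact_mod_cast ha2
  have ha0 : (0 : ℝ) < a := by linarith
  obtain ⟨c, hc⟩ : ∃ c : ℕ, c = ⌈16 * L⌉₊ := ⟨_, rfl⟩
  have hc1 : 16 * L ≤ c := by rw [hc]; exact Nat.le_ceil _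
  have hc2 : (c : ℝ) ≤ 16 * L + 1 := by rw [hc]; exact (Nat.ceil_lt_add_one (by positivity)).le
  have hc0 : 1 ≤ c := by
    have : (1 : ℝ) ≤ c := by linarith
    exact_mod_cast this
  have hca : 0 < a ^ 5 * c := by positivity
  obtain ⟨K, hK⟩ : ∃ K : ℕ, a ^ 5 * c = K + 1 := ⟨a ^ 5 * c - 1, by omega⟩
  have hKr : (K : ℝ) + 1 = (a : ℝ) ^ 5 * c := by
    have : ((K + 1 : ℕ) : ℝ) = ((a ^ 5 * c : ℕ) : ℝ) := by rw [hK]
    push_cast at this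
    exact this
  have hd1 : 1 ≤ a ^ 4 := Nat.one_le_pow _ _ (by omega)
  have hdK : a ^ 4 ≤ K := by
    have h3 : a ^ 4 * 2 ≤ a ^ 5 * c := by
      calc a ^ 4 * 2 ≤ a ^ 4 * a := Nat.mul_le_mul_left _ ha2
        _ = a ^ 5 * 1 := by ring
        _ ≤ a ^ 5 * c := Nat.mul_le_mul_left _ hc0
    omega
  obtain ⟨w, hw⟩ : ∃ w : ℝ, w = ((a : ℝ) ^ 4 * n) ^ (1 / 6 : ℝ) := ⟨_, rfl⟩
  have hw0 : 0 < w := by rw [hw]; positivity
  have hw6 : w ^ 6 = (a : ℝ) ^ 4 * n := by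
    rw [hw, ← Real.rpow_natCast, ← Real.rpow_mul (by positivity)]
    norm_num
  have h26a : (a : ℝ) ^ 26 ≤ n := by rw [← hy26]; exact pow_le_pow_left₀ ha0.le hay 26
  have h26b : (n : ℝ) ≤ (a + 1) ^ 26 := by
    rw [← hy26]; exact pow_le_pow_left₀ hy0.le hya.le 26
  obtain ⟨q1, q2, q3, q4, q5, q6⟩ := choice_num ha2' hn0 h26a h26b hw0 hw6 hL hc1 hc2
  have hg := hC K (a ^ 4) (sInf (vals β)) hd1 hdK (fun q hq hq1 _ =>
    csInf_le (Ld.cor_bdd hβ) ⟨K, me K, q, by rw [Ld.cor_me]; exact Pw2.gm_exponents K, hq, hq1,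
      rfl⟩) w hw0 (by rw [hw6]; push_cast; ring) (by rw [hKr]; exact q1)
  have hme : me K (a ^ 4) = 1 / (a * c) := by
    rw [me_eq, hKr]
    push_cast
    field_simp
  rw [hme, hKr] at hg
  push_cast at hg
  have hpv : (n : ℝ) * pv β = n * (Real.log 2 + sInf (vals β)) := rfl
  rw [← hpv] at hg
  have hc1' : (1 : ℝ) ≤ c := q5
  have hac : (0 : ℝ) < a * c := by positivity
  have hB := mean_le hn β (P := n * pv β) (C := C₁) hC₁ hmom hup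
    (ρ := 1 / ((a : ℝ) * c)) (by positivity) (by
      rw [← hL]
      apply one_div_le_one_div_of_le (by positivity)
      calc 16 * L ≤ c := hc1
        _ = 1 * c := (one_mul _).symm
        _ ≤ a * c := mul_le_mul_of_nonneg_right (by linarith) (by linarith))
  obtain ⟨Φ, hΦ⟩ : ∃ Φ, Φ = 1 / (1 / ((a : ℝ) * c)) *
    Real.log (∫ g, Real.exp (1 / ((a : ℝ) * c) * freeEnergy n β g) ∂(disorder n)) := ⟨_, rfl⟩
  rw [← hΦ, ← hL] at hg hB
  obtain ⟨R1, hR1⟩ : ∃ R1, R1 = C * (1 + Real.log ((a : ℝ) ^ 5 * c)) *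
      (n / ((a : ℝ) ^ 5 * c) + 2 * ((a : ℝ) ^ 5 * c * w ^ 4 / (a : ℝ) ^ 4)) := ⟨_, rfl⟩
  obtain ⟨R2, hR2⟩ : ∃ R2, R2 = (n : ℝ) * (1 / ((a : ℝ) * c)) ^ 5 * L ^ 5 := ⟨_, rfl⟩
  rw [← hR1] at hg
  rw [← hR2] at q6
  have e0 : 33216 * C₁ * n * (1 / ((a : ℝ) * c)) ^ 5 * L ^ 5 = 33216 * C₁ * R2 := by
    rw [hR2]; ring
  rw [e0] at hB
  have h21 : (a : ℝ) ^ 21 ≤ y ^ 21 := pow_le_pow_left₀ ha0.le hay 21
  have hy21 : 1 ≤ y ^ 21 := one_le_pow₀ (by linarith)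
  refine mean_fin (R1 := R1) (R2 := R2) hC0 hC₁ (sq_nonneg β) hL1 hT hy21 ?_ (q6.trans h21)
    (by linarith)
  have h3 : 1 + Real.log ((a : ℝ) ^ 5 * c) ≤ L := by linarith
  have h4 : 0 ≤ n / ((a : ℝ) ^ 5 * c) + 2 * ((a : ℝ) ^ 5 * c * w ^ 4 / (a : ℝ) ^ 4) := by
    positivity
  have h5 : 0 ≤ C * L := by positivity
  have h6 : 82000 * L * (a : ℝ) ^ 21 ≤ 82000 * L * y ^ 21 :=
    mul_le_mul_of_nonneg_left h21 (by positivity)
  calc R1 ≤ C * L * (82000 * L * y ^ 21) := by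
        rw [hR1]
        exact mul_le_mul (mul_le_mul_of_nonneg_left h3 hC0) (q2.trans h6) h4 h5
    _ = C * (82000 * T) := by rw [hT]; ring

/-- **The rate of the mean.** -/
theorem mean_rate {β : ℝ} (hβ : 1 ≤ β) (hG : GR β) : ∃ C : ℝ, 1 ≤ C ∧ ∀ n : ℕ, 1 ≤ n →
    n * pv β ≤ ∫ g, freeEnergy n β g ∂(disorder n) +
      C * (n : ℝ) ^ (21 / 26 : ℝ) * (1 + Real.log n) ^ 2 := by
  obtain ⟨C, hC0, hC⟩ := gr_w hG
  obtain ⟨C₁, hC₁, hmom, hup, -⟩ := rt_moment hβ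
  obtain ⟨C', hC'0, hC'⟩ := small_n 67108864
    (fun n => n * pv β - ∫ g, freeEnergy n β g ∂(disorder n))
  obtain ⟨D, hD⟩ : ∃ D, D = 164002 * C + 33216 * C₁ + β ^ 2 / 2 := ⟨_, rfl⟩
  have hD0 : 1 ≤ D := by rw [hD]; nlinarith [sq_nonneg β]
  refine ⟨D + C', by linarith, ?_⟩
  intro n hn
  have hn1 : (1 : ℝ) ≤ n := by exact_mod_cast hn
  have hn0 : (0 : ℝ) < n := by linarith
  have hlog : 0 ≤ Real.log n := Real.log_nonneg hn1
  obtain ⟨L, hL⟩ : ∃ L, L = 1 + Real.log n := ⟨_, rfl⟩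
  have hL1 : 1 ≤ L := by linarith
  have hL2 : 1 ≤ L ^ 2 := one_le_pow₀ hL1
  obtain ⟨y, hy⟩ : ∃ y : ℝ, y = (n : ℝ) ^ (1 / 26 : ℝ) := ⟨_, rfl⟩
  have hy1 : 1 ≤ y := by rw [hy]; exact Real.one_le_rpow hn1 (by norm_num)
  have hy0 : 0 < y := by linarith
  have hy26 : y ^ 26 = n := by
    rw [hy, ← Real.rpow_natCast, ← Real.rpow_mul hn0.le]
    norm_num
  have hy21 : (n : ℝ) ^ (21 / 26 : ℝ) = y ^ 21 := by
    rw [hy, ← Real.rpow_natCast, ← Real.rpow_mul hn0.le]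
    norm_num
  have hyp : 1 ≤ y ^ 21 := one_le_pow₀ hy1
  obtain ⟨T, hT⟩ : ∃ T, T = y ^ 21 * L ^ 2 := ⟨_, rfl⟩
  have hT1 : 1 ≤ T := by rw [hT]; exact one_le_mul_of_one_le_of_one_le hyp hL2
  have eT : (D + C') * (n : ℝ) ^ (21 / 26 : ℝ) * (1 + Real.log n) ^ 2 = D * T + C' * T := by
    rw [hy21, ← hL, hT]; ring
  rw [eT]
  have hDT : 0 ≤ D * T := by positivity
  have hCT : C' ≤ C' * T := le_mul_of_one_le_right hC'0 hT1
  rcases lt_or_ge y 2 with h2 | h2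
  · -- small `n`
    have hlt : n < 67108864 := by
      have h : (n : ℝ) < 67108864 := by
        rw [← hy26]
        have e : (67108864 : ℝ) = 2 ^ 26 := by norm_num
        rw [e]
        exact pow_lt_pow_left₀ h2 hy0.le (by norm_num)
      exact_mod_cast h
    have h1 : |n * pv β - ∫ g, freeEnergy n β g ∂(disorder n)| ≤ C' := hC' n hlt
    have h3 := (le_abs_self _).trans h1
    linarith
  · have h3 := mean_big hβ hC0 (by linarith) hn (fun K d Lb h1 h2 h3 => hC K d Lb h1 h2 h3 n hn)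
      (hmom n hn) (hup n hn) hL hy26 h2 hT
    rw [← hD] at h3
    linarith

end Vale.Agent.P146.Tb
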