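import Vale.Agent.P146.R3.H453.Num
import Vale.Agent.P146.H605.Order

set_option linter.all false

/-!
P146, R7: the chaos profile, the variance, the concentration and the order from a bound of the
finite-size correction of the mean.
-/

open MeasureTheory ProbabilityTheory Filter Topology

namespace Vale.Agent.P146.Tb

open Vale.Agent.P146.Sx Vale.Agent.P146.Ub.Cv Vale.Agent.P146.H605

lemma rpow_bound {n L : ℝ} (hn : 1 ≤ n) (hL : 1 ≤ L) :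
    n ^ (1 / 5 : ℝ) * (n ^ (21 / 26 : ℝ) * L ^ 2) ^ (4 / 5 : ℝ) ≤ n ^ (11 / 13 : ℝ) * L ^ 2 := by
  have hn0 : 0 < n := by linarith
  have hL2 : 1 ≤ L ^ 2 := one_le_pow₀ hL
  rw [Real.mul_rpow (by positivity) (by positivity), ← Real.rpow_mul hn0.le, ← mul_assoc,
    ← Real.rpow_add hn0]
  have e : (1 / 5 : ℝ) + 21 / 26 * (4 / 5) = 11 / 13 := by norm_num
  rw [e]
  refine mul_le_mul_of_nonneg_left ?_ (by positivity)
  calc (L ^ 2) ^ (4 / 5 : ℝ) ≤ (L ^ 2) ^ (1 : ℝ) :=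
        Real.rpow_le_rpow_of_exponent_le hL2 (by norm_num)
    _ = L ^ 2 := Real.rpow_one _

/-- the numbers: `x = (A / n)^(1/5)` -/
lemma fifth {n A : ℝ} (hn : 1 ≤ n) (hA : 1 ≤ A) (hAn : A ≤ n) :
    0 < (A / n) ^ (1 / 5 : ℝ) ∧ (A / n) ^ (1 / 5 : ℝ) ≤ 1 ∧
      n * ((A / n) ^ (1 / 5 : ℝ)) ^ 5 = A ∧
      A / (A / n) ^ (1 / 5 : ℝ) = n ^ (1 / 5 : ℝ) * A ^ (4 / 5 : ℝ) := by
  have hn0 : 0 < n := by linarith
  have hA0 : 0 < A := by linarith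
  refine ⟨by positivity, ?_, ?_, ?_⟩
  · refine Real.rpow_le_one (by positivity) ?_ (by norm_num)
    rw [div_le_one hn0]
    exact hAn
  · rw [← Real.rpow_natCast, ← Real.rpow_mul (by positivity)]
    norm_num
    field_simp
  · rw [Real.div_rpow hA0.le hn0.le, div_div_eq_mul_div, div_eq_iff (by positivity)]
    have e : A = A ^ (4 / 5 : ℝ) * A ^ (1 / 5 : ℝ) := by
      rw [← Real.rpow_add hA0]
      norm_num
    nth_rewrite 1 [e]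
    ring

/-- the exponential moments below a bound of the mean correction -/
lemma mgf_A {β : ℝ} {C₁ c : ℝ} {n : ℕ} (hn : 1 ≤ n) (hC₁ : 1 ≤ C₁) (hc : 0 ≤ c)
    (hmom : ∀ x : ℝ, 0 < x → x ≤ 1 →
      Real.log (∫ g, Real.exp (x * freeEnergy n β g) ∂(disorder n)) ≤
        x * (n * pv β) + C₁ * n * x ^ 6) {A : ℝ} (hA : 1 ≤ A) (hAn : A ≤ n)
    (hM : n * pv β - ∫ g, freeEnergy n β g ∂(disorder n) ≤ c * A) {y : ℝ} (hy : 0 < y)
    (hyu : y ≤ (A / n) ^ (1 / 5 : ℝ)) :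
    ∫ g, Real.exp (y * freeEnergy n β g) ∂(disorder n) ≤
      Real.exp (y * (∫ g, freeEnergy n β g ∂(disorder n)) +
        (c + C₁) * ((A / n) ^ (1 / 5 : ℝ) * A)) := by
  have hn1 : (1 : ℝ) ≤ n := by exact_mod_cast hn
  have hn0 : (0 : ℝ) < n := by linarith
  obtain ⟨f1, f2, f3, f4⟩ := fifth hn1 hA hAn
  obtain ⟨u, hu⟩ : ∃ u, u = (A / n) ^ (1 / 5 : ℝ) := ⟨_, rfl⟩
  rw [← hu] at f1 f2 f3 hyu ⊢
  rcases le_or_gt (∫ g, Real.exp (y * freeEnergy n β g) ∂(disorder n)) 0 with h0 | h0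
  · exact h0.trans (Real.exp_pos _).le
  rw [← Real.log_le_iff_le_exp h0]
  refine (hmom y hy (hyu.trans f2)).trans ?_
  have h1 : y * (n * pv β) ≤ y * (∫ g, freeEnergy n β g ∂(disorder n)) + c * (u * A) := by
    have h2 : y * (n * pv β - ∫ g, freeEnergy n β g ∂(disorder n)) ≤ y * (c * A) :=
      mul_le_mul_of_nonneg_left hM hy.le
    have h3 : y * (c * A) ≤ u * (c * A) :=
      mul_le_mul_of_nonneg_right hyu (mul_nonneg hc (by linarith))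
    linarith
  have h4 : C₁ * n * y ^ 6 ≤ C₁ * (u * A) := by
    have h5 : y ^ 6 ≤ u ^ 6 := pow_le_pow_left₀ hy.le hyu 6
    calc C₁ * n * y ^ 6 ≤ C₁ * n * u ^ 6 := mul_le_mul_of_nonneg_left h5 (by positivity)
      _ = C₁ * (u * (n * u ^ 5)) := by ring
      _ = C₁ * (u * A) := by rw [f3]
  linarith

/-- **The profile below a bound of the mean correction.** -/
theorem phi_A {β : ℝ} {C₁ c : ℝ} {n : ℕ} (hn : 1 ≤ n) (hC₁ : 1 ≤ C₁) (hc : 0 ≤ c)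
    (hmom : ∀ x : ℝ, 0 < x → x ≤ 1 →
      Real.log (∫ g, Real.exp (x * freeEnergy n β g) ∂(disorder n)) ≤
        x * (n * pv β) + C₁ * n * x ^ 6) {A : ℝ} (hA : 1 ≤ A) (hAn : A ≤ n)
    (hM : n * pv β - ∫ g, freeEnergy n β g ∂(disorder n) ≤ c * A) (θ : ℝ) :
    Real.sin θ ^ 2 * phi (gradF n β) θ ≤
      2 * (c + C₁) * ((n : ℝ) ^ (1 / 5 : ℝ) * A ^ (4 / 5 : ℝ)) := by
  have hn1 : (1 : ℝ) ≤ n := by exact_mod_cast hn
  obtain ⟨f1, f2, f3, f4⟩ := fifth hn1 hA hAn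
  have hexp := mgf_A hn hC₁ hc hmom hA hAn hM f1 le_rfl
  rw [← f4]
  obtain ⟨x, hx⟩ : ∃ x, x = (A / n) ^ (1 / 5 : ℝ) := ⟨_, rfl⟩
  rw [← hx] at f1 hexp ⊢
  have hr := reg_freeEnergy n β
  have h1 := total_ineq (lin_freeEnergy n β)
    (fun p => Lin.of_bounded (hr.G_dom p).cont _ (hr.G_bd p)) hr.G_bd (tangent_freeEnergy n β)
    (c := Real.cos θ) (s := Real.sin θ)
    (by rw [add_comm]; exact Real.sin_sq_add_cos_sq θ) f1.le
  rw [← phi_eq hr.G_dom] at h1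
  have h2 := Real.exp_le_exp.1 (h1.trans hexp)
  have e2 : x * (∫ g, freeEnergy n β g ∂(gpi (Pair n))) =
      x * (∫ g, freeEnergy n β g ∂(disorder n)) := rfl
  have h3 : x ^ 2 / 2 * (Real.sin θ ^ 2 * phi (gradF n β) θ) ≤
      x ^ 2 / 2 * (2 * (c + C₁) * (A / x)) := by
    have e : x ^ 2 * Real.sin θ ^ 2 / 2 * phi (gradF n β) θ =
      x ^ 2 / 2 * (Real.sin θ ^ 2 * phi (gradF n β) θ) := by ring
    have e3 : x ^ 2 / 2 * (2 * (c + C₁) * (A / x)) = (c + C₁) * (x * A) := by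
      field_simp
    rw [e] at h2
    rw [e3]
    linarith only [h2, e2]
  exact le_of_mul_le_mul_left h3 (by positivity)

/-- the profile at `a` -/
theorem prof_A {β : ℝ} {n : ℕ} (hn : 1 ≤ n) {B : ℝ}
    (h : ∀ θ, Real.sin θ ^ 2 * phi (gradF n β) θ ≤ B) {a : ℝ} (ha : 0 ≤ a) (ha1 : a < 1) :
    (1 - a) * (β ^ 2 / 2 * (n * crossOverlap n β a - 1)) ≤ B := by
  have h1 := h (Real.arccos (Real.sqrt a))
  rw [← prof_eq_phi n β hn ha ha1.le, Real.sin_sq, Real.cos_arccos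
    (by linarith [Real.sqrt_nonneg a]) (Real.sqrt_le_one.2 ha1.le), Real.sq_sqrt ha] at h1
  exact h1

lemma exists_A {n : ℕ} (hn : 1 ≤ n) {M C : ℝ} (hM0 : 0 ≤ M) (hC : 1 ≤ C) (hM : M ≤ C * n) :
    ∃ A : ℝ, 1 ≤ A ∧ A ≤ n ∧ M ≤ (1 + C) * A ∧ A ≤ 1 + M := by
  have hn1 : (1 : ℝ) ≤ n := by exact_mod_cast hn
  refine ⟨max 1 ((1 + M) / (1 + C)), le_max_left _ _, max_le hn1 ?_, ?_, max_le (by linarith) ?_⟩
  · rw [div_le_iff₀ (by linarith)]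
    nlinarith
  · have h1 : (1 + M) / (1 + C) ≤ max 1 ((1 + M) / (1 + C)) := le_max_right _ _
    rw [div_le_iff₀ (by linarith)] at h1
    linarith
  · rw [div_le_iff₀ (by linarith)]
    nlinarith

/-- **The profile and the finite-size correction of the mean.** -/
theorem prof_fs {β : ℝ} (hβ : 1 ≤ β) : ∃ C : ℝ, 1 ≤ C ∧ ∀ n : ℕ, 1 ≤ n →
    ∀ a : ℝ, 0 ≤ a → a < 1 → (1 - a) * (β ^ 2 / 2 * (n * crossOverlap n β a - 1)) ≤
      C * (n : ℝ) ^ (1 / 5 : ℝ) *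
        (1 + (n * pv β - ∫ g, freeEnergy n β g ∂(disorder n))) ^ (4 / 5 : ℝ) := by
  obtain ⟨C₁, hC₁, hmom, hup, hlow⟩ := rt_moment hβ
  refine ⟨2 * ((1 + C₁) + C₁), by linarith, fun n hn a ha ha1 => ?_⟩
  have hn1 : (1 : ℝ) ≤ n := by exact_mod_cast hn
  have hn0 : (0 : ℝ) < n := by linarith
  obtain ⟨M, hM⟩ : ∃ M, M = n * pv β - ∫ g, freeEnergy n β g ∂(disorder n) := ⟨_, rfl⟩
  have hM0 : 0 ≤ M := by
    have := hup n hn
    linarith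
  have hMn : M ≤ C₁ * n := by
    have h1 := hlow n hn
    have h2 : (n : ℝ) ^ (7 / 8 : ℝ) ≤ n := by
      nth_rewrite 2 [← Real.rpow_one (n : ℝ)]
      exact Real.rpow_le_rpow_of_exponent_le hn1 (by norm_num)
    have h3 : C₁ * (n : ℝ) ^ (7 / 8 : ℝ) ≤ C₁ * n := mul_le_mul_of_nonneg_left h2 (by linarith)
    linarith
  obtain ⟨A, hA1, hAn, hMA, hA2⟩ := exists_A hn hM0 hC₁ hMn
  rw [← hM]
  have h1 := prof_A hn (fun θ => phi_A hn hC₁ (by linarith : (0 : ℝ) ≤ 1 + C₁) (hmom n hn) hA1 hAn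
    (by rw [← hM]; exact hMA) θ) ha ha1
  refine h1.trans ?_
  have h2 : A ^ (4 / 5 : ℝ) ≤ (1 + M) ^ (4 / 5 : ℝ) :=
    Real.rpow_le_rpow (by linarith) hA2 (by norm_num)
  rw [mul_assoc (2 * ((1 + C₁) + C₁))]
  refine mul_le_mul_of_nonneg_left ?_ (by linarith)
  exact mul_le_mul_of_nonneg_left h2 (by positivity)

/-- the bound of the mean as an admissible `A` -/
lemma exists_A2 {n : ℕ} (hn : 1 ≤ n) {M C : ℝ} (hC : 1 ≤ C) (hM : M ≤ C * n)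
    (hM2 : M ≤ C * (n : ℝ) ^ (21 / 26 : ℝ) * (1 + Real.log n) ^ 2) :
    ∃ A : ℝ, 1 ≤ A ∧ (n : ℝ) ^ (1 / 6 : ℝ) ≤ A ∧ A ≤ n ∧ M ≤ C * A ∧
      A ≤ (n : ℝ) ^ (21 / 26 : ℝ) * (1 + Real.log n) ^ 2 := by
  have hn1 : (1 : ℝ) ≤ n := by exact_mod_cast hn
  have hl0 : 0 ≤ Real.log n := Real.log_nonneg hn1
  have hL2 : 1 ≤ (1 + Real.log n) ^ 2 := one_le_pow₀ (by linarith)
  have h21 : 1 ≤ (n : ℝ) ^ (21 / 26 : ℝ) := Real.one_le_rpow hn1 (by norm_num)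
  have h6 : (n : ℝ) ^ (1 / 6 : ℝ) ≤ n := by
    nth_rewrite 2 [← Real.rpow_one (n : ℝ)]
    exact Real.rpow_le_rpow_of_exponent_le hn1 (by norm_num)
  have h6' : (n : ℝ) ^ (1 / 6 : ℝ) ≤ (n : ℝ) ^ (21 / 26 : ℝ) :=
    Real.rpow_le_rpow_of_exponent_le hn1 (by norm_num)
  have h7 : (n : ℝ) ^ (21 / 26 : ℝ) ≤ (n : ℝ) ^ (21 / 26 : ℝ) * (1 + Real.log n) ^ 2 :=
    le_mul_of_one_le_right (by positivity) hL2
  refine ⟨min n ((n : ℝ) ^ (21 / 26 : ℝ) * (1 + Real.log n) ^ 2), le_min hn1 (h21.trans h7),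
    le_min h6 (h6'.trans h7), min_le_left _ _, ?_, min_le_right _ _⟩
  rcases le_total (n : ℝ) ((n : ℝ) ^ (21 / 26 : ℝ) * (1 + Real.log n) ^ 2) with h | h
  · rw [min_eq_left h]
    exact hM
  · rw [min_eq_right h, ← mul_assoc]
    exact hM2

/-- The rate of the mean as a hypothesis. -/
def MR (β : ℝ) : Prop := ∃ C : ℝ, 1 ≤ C ∧ ∀ n : ℕ, 1 ≤ n →
    n * pv β ≤ ∫ g, freeEnergy n β g ∂(disorder n) +
      C * (n : ℝ) ^ (21 / 26 : ℝ) * (1 + Real.log n) ^ 2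

/-- all the constants together -/
lemma basis {β : ℝ} (hβ : 1 ≤ β) (hR : MR β) : ∃ C : ℝ, 1 ≤ C ∧
    (∀ n : ℕ, 1 ≤ n → ∀ x : ℝ, 0 < x → x ≤ 1 →
      Real.log (∫ g, Real.exp (x * freeEnergy n β g) ∂(disorder n)) ≤
        x * (n * pv β) + C * n * x ^ 6) ∧
    ∀ n : ℕ, 1 ≤ n → ∃ A : ℝ, 1 ≤ A ∧ (n : ℝ) ^ (1 / 6 : ℝ) ≤ A ∧ A ≤ n ∧
      n * pv β - ∫ g, freeEnergy n β g ∂(disorder n) ≤ C * A ∧
      A ≤ (n : ℝ) ^ (21 / 26 : ℝ) * (1 + Real.log n) ^ 2 := by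
  obtain ⟨C₁, hC₁, hmom, hup, hlow⟩ := rt_moment hβ
  obtain ⟨C₂, hC₂, h2⟩ := hR
  refine ⟨max C₁ C₂, hC₁.trans (le_max_left _ _), fun n hn x hx hx1 => ?_, fun n hn => ?_⟩
  · refine (hmom n hn x hx hx1).trans ?_
    have : C₁ * n * x ^ 6 ≤ max C₁ C₂ * n * x ^ 6 := by
      gcongr
      exact le_max_left _ _
    linarith
  · have hn1 : (1 : ℝ) ≤ n := by exact_mod_cast hn
    have hn0 : (0 : ℝ) < n := by linarith
    have hl0 : 0 ≤ Real.log n := Real.log_nonneg hn1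
    refine exists_A2 hn (hC₁.trans (le_max_left _ _)) ?_ ?_
    · have h1 := hlow n hn
      have h3 : (n : ℝ) ^ (7 / 8 : ℝ) ≤ n := by
        nth_rewrite 2 [← Real.rpow_one (n : ℝ)]
        exact Real.rpow_le_rpow_of_exponent_le hn1 (by norm_num)
      have h4 : C₁ * (n : ℝ) ^ (7 / 8 : ℝ) ≤ max C₁ C₂ * n :=
        mul_le_mul (le_max_left _ _) h3 (by positivity) (by linarith [le_max_left C₁ C₂])
      linarith
    · have h1 := h2 n hn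
      have h4 : C₂ * (n : ℝ) ^ (21 / 26 : ℝ) * (1 + Real.log n) ^ 2 ≤
          max C₁ C₂ * (n : ℝ) ^ (21 / 26 : ℝ) * (1 + Real.log n) ^ 2 := by
        gcongr
        exact le_max_right _ _
      linarith

/-- **The profile, the chaos rate and the variance.** -/
theorem var_rate {β : ℝ} (hβ : 1 ≤ β) (hR : MR β) : ∃ C : ℝ, 1 ≤ C ∧ ∀ n : ℕ, 1 ≤ n →
    (∀ a : ℝ, 0 ≤ a → a < 1 →
      crossOverlap n β a ≤ C * (n : ℝ) ^ (-(2 / 13) : ℝ) * (1 + Real.log n) ^ 2 / (1 - a)) ∧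
    Var[freeEnergy n β; disorder n] ≤ C * (n : ℝ) ^ (11 / 13 : ℝ) * (1 + Real.log n) ^ 3 := by
  obtain ⟨C₀, hC₀, hmom, hA⟩ := basis hβ hR
  obtain ⟨C, hC⟩ : ∃ C, C = 4 * C₀ := ⟨_, rfl⟩
  have hC1 : 1 ≤ C := by linarith
  have hb : 1 ≤ β ^ 2 := one_le_pow₀ hβ
  refine ⟨1 + 2 * C + β ^ 2, by linarith, fun n hn => ?_⟩
  have hn1 : (1 : ℝ) ≤ n := by exact_mod_cast hn
  have hn0 : (0 : ℝ) < n := by linarith
  have hl0 : 0 ≤ Real.log n := Real.log_nonneg hn1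
  obtain ⟨A, hA1, -, hAn, hMA, hA2⟩ := hA n hn
  obtain ⟨L, hL⟩ : ∃ L, L = 1 + Real.log n := ⟨_, rfl⟩
  have hL1 : 1 ≤ L := by linarith
  have hLsq : 1 ≤ L ^ 2 := one_le_pow₀ hL1
  obtain ⟨Y, hY⟩ : ∃ Y, Y = (n : ℝ) ^ (11 / 13 : ℝ) := ⟨_, rfl⟩
  have hY1 : 1 ≤ Y := by rw [hY]; exact Real.one_le_rpow hn1 (by norm_num)
  obtain ⟨Z, hZ⟩ : ∃ Z, Z = (n : ℝ) ^ (-(2 / 13) : ℝ) := ⟨_, rfl⟩
  have hZY : Z * n = Y := by
    rw [hZ, hY]
    nth_rewrite 2 [← Real.rpow_one (n : ℝ)]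
    rw [← Real.rpow_add hn0]
    norm_num
  have hprof : ∀ a : ℝ, 0 ≤ a → a < 1 →
      (1 - a) * (β ^ 2 / 2 * (n * crossOverlap n β a - 1)) ≤ C * Y * L ^ 2 := by
    intro a ha ha1
    refine (prof_A hn (fun θ => phi_A hn hC₀ (by linarith : (0 : ℝ) ≤ C₀) (hmom n hn) hA1 hAn
      hMA θ) ha ha1).trans ?_
    have h2 : A ^ (4 / 5 : ℝ) ≤ ((n : ℝ) ^ (21 / 26 : ℝ) * (1 + Real.log n) ^ 2) ^ (4 / 5 : ℝ) :=
      Real.rpow_le_rpow (by linarith) hA2 (by norm_num)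
    have h3 := rpow_bound hn1 hL1
    rw [← hL] at h2
    rw [← hY] at h3
    have e : 2 * (C₀ + C₀) = C := by rw [hC]; ring
    rw [e, mul_assoc C]
    refine mul_le_mul_of_nonneg_left (le_trans ?_ h3) (by linarith)
    exact mul_le_mul_of_nonneg_left h2 (by positivity)
  rw [← hL, ← hY, ← hZ]
  constructor
  · intro a ha ha1
    have h1 := hprof a ha ha1
    have ha' : 0 < 1 - a := by linarith
    rw [le_div_iff₀ ha']
    have h2 : (1 - a) * (n * crossOverlap n β a - 1) ≤ 2 * C * Y * L ^ 2 := by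
      have h3 : 0 ≤ C * Y * L ^ 2 := by positivity
      have h4 : β ^ 2 * ((1 - a) * (n * crossOverlap n β a - 1)) ≤ β ^ 2 * (2 * C * Y * L ^ 2) := by
        nlinarith
      exact le_of_mul_le_mul_left h4 (by linarith)
    have h5 : n * (crossOverlap n β a * (1 - a)) ≤ n * ((1 + 2 * C + β ^ 2) * Z * L ^ 2) := by
      have e1 : n * ((1 + 2 * C + β ^ 2) * Z * L ^ 2) = (1 + 2 * C + β ^ 2) * (Z * n) * L ^ 2 := by
        ring
      rw [e1, hZY]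
      have h6 : 1 ≤ Y * L ^ 2 := by nlinarith
      have h7 : (1 + 2 * C) * (Y * L ^ 2) ≤ (1 + 2 * C + β ^ 2) * (Y * L ^ 2) :=
        mul_le_mul_of_nonneg_right (by linarith) (by linarith)
      nlinarith
    exact le_of_mul_le_mul_left h5 hn0
  · have h1 := var_le_of_prof n β hn hprof
    have hYL : 1 ≤ Y * L ^ 3 := by
      have := one_le_pow₀ hL1 (n := 3)
      nlinarith
    have h2 : C * Y * L ^ 2 * Real.log n ≤ C * Y * L ^ 2 * L :=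
      mul_le_mul_of_nonneg_left (by linarith) (by positivity)
    have e : C * Y * L ^ 2 * L = C * (Y * L ^ 3) := by ring
    have h3 : β ^ 2 / 2 ≤ β ^ 2 * (Y * L ^ 3) := by nlinarith
    have h4 : C * (Y * L ^ 3) ≤ (1 + 2 * C) * (Y * L ^ 3) :=
      mul_le_mul_of_nonneg_right (by linarith) (by linarith)
    have e2 : (1 + 2 * C + β ^ 2) * Y * L ^ 3 = (1 + 2 * C) * (Y * L ^ 3) + β ^ 2 * (Y * L ^ 3) := by
      ring
    rw [e2]
    linarith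

end Vale.Agent.P146.Tb
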