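import Vale.Agent.P146.R3.H453.Win
import Vale.Agent.P146.R3.H749.Rate2

set_option linter.all false

/-!
P146, R7: the growth of the chaos profile and the rate at every exponent.
-/

open MeasureTheory ProbabilityTheory Filter Topology Set

namespace Vale.Agent.P146.Tb

open Vale.Agent.P146.H605

/-- the chaos profile grows as fast as the variance, up to logarithms -/
theorem prof_grow {β γ₀ : ℝ} (hγ₀ : 0 < γ₀)
    (hvar : ∀ γ : ℝ, γ < γ₀ → ∀ᶠ n : ℕ in atTop, (n : ℝ) ^ γ ≤ Var[freeEnergy n β; disorder n]) :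
    ∀ γ : ℝ, γ < γ₀ → ∀ᶠ n : ℕ in atTop, ∃ t : ℝ, 0 ≤ t ∧ t < 1 ∧
      (n : ℝ) ^ γ ≤ n * (1 - t) * crossOverlap n β t := by
  intro γ' hγ'
  obtain ⟨γ, hγ⟩ : ∃ γ, γ = max γ' (γ₀ / 2) := ⟨_, rfl⟩
  have hγ0 : 0 < γ := by rw [hγ]; exact lt_of_lt_of_le (by linarith) (le_max_right _ _)
  have hγ1 : γ < γ₀ := by rw [hγ]; exact max_lt hγ' (by linarith)
  have hγγ : γ' ≤ γ := by rw [hγ]; exact le_max_left _ _
  obtain ⟨η, hη⟩ : ∃ η, η = (γ₀ - γ) / 2 := ⟨_, rfl⟩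
  have hη0 : 0 < η := by rw [hη]; linarith
  have hlog : ∀ᶠ n : ℕ in atTop, (1 + β ^ 2) * (1 + Real.log n) ≤ (n : ℝ) ^ η := by
    have h := (isLittleO_log_rpow_atTop hη0).bound
      (show (0 : ℝ) < 1 / (2 * (1 + β ^ 2)) by positivity)
    have h' := (tendsto_natCast_atTop_atTop (R := ℝ)).eventually h
    have ht : Tendsto (fun n : ℕ => (n : ℝ) ^ η) atTop atTop :=
      (tendsto_rpow_atTop hη0).comp tendsto_natCast_atTop_atTop
    filter_upwards [h', eventually_ge_atTop 1, ht.eventually_ge_atTop (2 * (1 + β ^ 2))] with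
      n hn hn1 hn2
    rw [Real.norm_eq_abs, Real.norm_eq_abs,
      abs_of_nonneg (by positivity : 0 ≤ (n : ℝ) ^ η)] at hn
    have h1 := (le_abs_self _).trans hn
    have h2 := mul_le_mul_of_nonneg_left h1 (by positivity : 0 ≤ 2 * (1 + β ^ 2))
    have e : 2 * (1 + β ^ 2) * (1 / (2 * (1 + β ^ 2)) * (n : ℝ) ^ η) = (n : ℝ) ^ η := by
      field_simp
    rw [e] at h2
    linarith
  filter_upwards [hvar (γ + η) (by rw [hη]; linarith), hlog, eventually_ge_atTop 1] with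
    n h1 h2 hn
  have hn1 : (1 : ℝ) ≤ n := by exact_mod_cast hn
  have hn0 : (0 : ℝ) < n := by linarith
  have hl0 : 0 ≤ Real.log n := Real.log_nonneg hn1
  by_contra hcon
  push Not at hcon
  obtain ⟨X, hX⟩ : ∃ X, X = (n : ℝ) ^ γ := ⟨_, rfl⟩
  have hX1 : 1 ≤ X := by rw [hX]; exact Real.one_le_rpow hn1 hγ0.le
  have hb : 0 ≤ β ^ 2 := sq_nonneg β
  have hXX : (n : ℝ) ^ γ' ≤ X := by
    rw [hX]; exact Real.rpow_le_rpow_of_exponent_le hn1 hγγ
  have h4 := var_le_of_prof n β hn (A := β ^ 2 / 2 * X) (fun a ha ha1 => by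
    have h5 := hcon a ha ha1
    have e : (1 - a) * (β ^ 2 / 2 * (n * crossOverlap n β a - 1)) =
        β ^ 2 / 2 * (n * (1 - a) * crossOverlap n β a - (1 - a)) := by ring
    rw [e]
    refine mul_le_mul_of_nonneg_left ?_ (by positivity)
    linarith)
  rw [Real.rpow_add hn0, ← hX] at h1
  have h6 := h1.trans h4
  have h7 : X * ((1 + β ^ 2) * (1 + Real.log n)) ≤ X * (n : ℝ) ^ η :=
    mul_le_mul_of_nonneg_left h2 (by linarith)
  have h8 : β ^ 2 / 2 ≤ β ^ 2 / 2 * X := le_mul_of_one_le_right (by linarith) hX1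
  have h9 : 0 ≤ X * Real.log n := by positivity
  have h10 : 0 ≤ β ^ 2 * (X * Real.log n) := by positivity
  have h11 : 0 ≤ β ^ 2 * X := by positivity
  nlinarith

end Vale.Agent.P146.Tb
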