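import Vale.Agent.P146.Bdl.B25
import Vale.Agent.P146.Bdl.B37

set_option linter.all false

/-!
P146, R7 (B): the convexity inequality with a tilted base measure.

`f` convex on a Gaussian space, `Γ` = the gradient of `f` averaged with the weight `exp (ρ f)`:
`exp ((ρ + x) ∫ f + x² / 2 |Γ|²) ≤ ∫ exp ((ρ + x) f)`.
-/

open MeasureTheory ProbabilityTheory Filter Topology

namespace Vale.Agent.P146.Tb

open Vale.Agent.P157.Lv Vale.Agent.P157.Lv.Sy

section tilt

variable {ι : Type} [Fintype ι] [DecidableEq ι]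

lemma lip_shift {f : (ι → ℝ) → ℝ} (hf : Lip f) (u : ι → ℝ) : Lip fun y => f (fun e => y e + u e) := by
  obtain ⟨L, hL, h⟩ := hf
  refine ⟨L, hL, fun y y' => (h _ _).trans ?_⟩
  have e : (fun e => y e + u e) - (fun e => y' e + u e) = y - y' := by
    funext e
    simp
  rw [e]

lemma lip_lin (a : ι → ℝ) : Lip fun y : ι → ℝ => ∑ e, a e * y e :=
  Lip.sum Finset.univ fun e _ => (Lip.coord e).const_mul (a e)

/-- the entropy inequality -/
lemma ent_pt {Z v : ℝ} (hZ : 0 < Z) :
    Real.exp v - Z ≤ Real.exp v * (v - Real.log Z) := by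
  have h1 := Real.log_le_sub_one_of_pos (div_pos hZ (Real.exp_pos v))
  rw [Real.log_div hZ.ne' (Real.exp_pos v).ne', Real.log_exp] at h1
  have h2 := mul_le_mul_of_nonneg_left h1 (Real.exp_pos v).le
  have h3 : Real.exp v * (Z / Real.exp v - 1) = Z - Real.exp v := by
    field_simp
  rw [h3] at h2
  linarith

/-- **The tilted convexity inequality.** -/
theorem tilt_exp {f : (ι → ℝ) → ℝ} (hf : Lip f) {g : ι → (ι → ℝ) → ℝ} (hg : ∀ e, EG (g e))
    (hpd : ∀ e, PD e f (g e))
    (hconv : ∀ w v : ι → ℝ, f w + ∑ e, g e w * v e ≤ f (fun e => w e + v e))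
    {ρ x : ℝ} (hρ : 0 < ρ) (hx : 0 ≤ x) {Z : ℝ} (hZ : Z = ∫ w, Real.exp (ρ * f w) ∂(gI ι))
    {Γ : ι → ℝ} (hΓ : ∀ e, Z * Γ e = ∫ w, Real.exp (ρ * f w) * g e w ∂(gI ι)) :
    Real.exp ((ρ + x) * (∫ w, f w ∂(gI ι)) + x ^ 2 / 2 * ∑ e, Γ e ^ 2) ≤
      ∫ w, Real.exp ((ρ + x) * f w) ∂(gI ι) := by
  have eE : EG fun w => Real.exp (ρ * f w) := hf.exp_eg ρ
  have ef : EG f := hf.eg
  have hZ0 : 0 < Z := by rw [hZ]; exact integral_exp_pos eE.integrable
  -- integration by parts
  have ibp : ∀ e, ∫ w, w e * Real.exp (ρ * f w) ∂(gI ι) = ρ * (Z * Γ e) := by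
    intro e
    have h1 := ((hpd e).const_mul ρ).exp.stein eE (eE.mul ((hg e).const_mul ρ))
    rw [h1, hΓ, ← integral_const_mul]
    refine integral_congr_ae (Filter.Eventually.of_forall fun w => ?_)
    simp only
    ring
  -- the mean
  obtain ⟨M1, hM1⟩ : ∃ M1 : ℝ, Z * M1 = ∫ w, Real.exp (ρ * f w) * f w ∂(gI ι) :=
    ⟨(∫ w, Real.exp (ρ * f w) * f w ∂(gI ι)) / Z, by field_simp⟩
  have hJ : ρ * (∫ w, f w ∂(gI ι)) ≤ Real.log Z := by
    rw [Real.le_log_iff_exp_le hZ0, hZ, ← integral_const_mul]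
    exact Vale.Agent.P146.Ub.Cv.exp_integral_le (ef.const_mul ρ).integrable eE.integrable
  have hM : Real.log Z ≤ ρ * M1 := by
    have h1 : ∫ w, (Real.exp (ρ * f w) - Z) ∂(gI ι) ≤
        ∫ w, Real.exp (ρ * f w) * (ρ * f w - Real.log Z) ∂(gI ι) :=
      integral_mono (eE.sub (EG.const _)).integrable
        (eE.mul ((ef.const_mul ρ).sub (EG.const _))).integrable fun w => ent_pt hZ0
    rw [integral_sub eE.integrable (integrable_const _), ← hZ, integral_const, probReal_univ,
      one_smul, sub_self] at h1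
    have e1 : ∫ w, Real.exp (ρ * f w) * (ρ * f w - Real.log Z) ∂(gI ι) =
        ρ * (Z * M1) - Real.log Z * Z := by
      have e2 : (fun w => Real.exp (ρ * f w) * (ρ * f w - Real.log Z)) =
          fun w => ρ * (Real.exp (ρ * f w) * f w) - Real.log Z * Real.exp (ρ * f w) := by
        funext w
        ring
      rw [e2, integral_sub ((eE.mul ef).const_mul ρ).integrable (eE.const_mul _).integrable,
        integral_const_mul, integral_const_mul, ← hM1, ← hZ]
    rw [e1] at h1
    have h2 : Z * Real.log Z ≤ Z * (ρ * M1) := by linarith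
    exact le_of_mul_le_mul_left h2 hZ0
  -- the shift
  obtain ⟨u, hu⟩ : ∃ u : ι → ℝ, u = fun e => x * Γ e := ⟨_, rfl⟩
  obtain ⟨m, hm⟩ : ∃ m : ℝ, m = x * M1 + x ^ 2 / 2 * ∑ e, Γ e ^ 2 := ⟨_, rfl⟩
  have hu2 : ∑ e, u e ^ 2 = x ^ 2 * ∑ e, Γ e ^ 2 := by
    rw [hu, Finset.mul_sum]
    exact Finset.sum_congr rfl fun e _ => by ring
  have huG : ∑ e, u e * (Z * Γ e) = x * Z * ∑ e, Γ e ^ 2 := by
    rw [hu, Finset.mul_sum]
    exact Finset.sum_congr rfl fun e _ => by ring
  have hsh : ∫ w, Real.exp ((ρ + x) * f w) ∂(gI ι) =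
      ∫ y, Real.exp (-(∑ e, u e * y e) - (∑ e, u e ^ 2) / 2) *
        Real.exp ((ρ + x) * f (fun e => y e + u e)) ∂(gI ι) :=
    Vale.Agent.P146.Ub.Cv.int_shift u (fun w => Real.exp ((ρ + x) * f w))
  rw [hsh]
  obtain ⟨L, hL⟩ : ∃ L : (ι → ℝ) → ℝ, L = fun y => -(∑ e, u e * y e) - (∑ e, u e ^ 2) / 2 +
      x * f y + (ρ + x) * ∑ e, u e * g e y := ⟨_, rfl⟩
  have eL : EG L := by
    rw [hL]
    exact (((lip_lin u).eg.neg.sub (EG.const _)).add (ef.const_mul x)).add
      ((EG.sum Finset.univ fun e _ => (hg e).const_mul (u e)).const_mul _)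
  have h1 : ∫ y, Real.exp (ρ * f y) * (Real.exp m * (L y + 1 - m)) ∂(gI ι) ≤
      ∫ y, Real.exp (-(∑ e, u e * y e) - (∑ e, u e ^ 2) / 2) *
        Real.exp ((ρ + x) * f (fun e => y e + u e)) ∂(gI ι) := by
    refine integral_mono (eE.mul (((eL.add (EG.const 1)).sub (EG.const m)).const_mul _)).integrable
      ?_ fun y => ?_
    · have e1 : EG fun y : ι → ℝ => Real.exp (-(∑ e, u e * y e) - (∑ e, u e ^ 2) / 2) := by
        have h2 := ((lip_lin (fun e => -u e)).add (Lip.const (-((∑ e, u e ^ 2) / 2)))).exp_eg 1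
        refine h2.mono (by fun_prop) fun y => le_of_eq ?_
        congr 2
        rw [one_mul]
        have h3 : ∑ e, -u e * y e = -∑ e, u e * y e := by
          rw [← Finset.sum_neg_distrib]
          exact Finset.sum_congr rfl fun e _ => by ring
        rw [h3]
        ring
      exact (e1.mul ((lip_shift hf u).exp_eg (ρ + x))).integrable
    · simp only
      have h2 : Real.exp m * (L y + 1 - m) ≤ Real.exp (L y) := by
        have h3 := Real.add_one_le_exp (L y - m)
        have h4 : Real.exp (L y) = Real.exp m * Real.exp (L y - m) := by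
          rw [← Real.exp_add]; congr 1; ring
        rw [h4]
        exact mul_le_mul_of_nonneg_left (by linarith) (Real.exp_pos m).le
      refine (mul_le_mul_of_nonneg_left h2 (Real.exp_pos _).le).trans ?_
      rw [← Real.exp_add, ← Real.exp_add]
      refine Real.exp_le_exp.2 ?_
      have h5 := mul_le_mul_of_nonneg_left (hconv y u) (by linarith : (0 : ℝ) ≤ ρ + x)
      have h6 : ∑ e, g e y * u e = ∑ e, u e * g e y :=
        Finset.sum_congr rfl fun e _ => mul_comm _ _
      rw [h6] at h5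
      rw [hL]
      simp only
      linarith
  refine le_trans ?_ h1
  -- the value
  have hv : ∫ y, Real.exp (ρ * f y) * (Real.exp m * (L y + 1 - m)) ∂(gI ι) = Real.exp m * Z := by
    have e1 : (fun y => Real.exp (ρ * f y) * (Real.exp m * (L y + 1 - m))) =
        fun y => Real.exp m * (Real.exp (ρ * f y) * L y + (1 - m) * Real.exp (ρ * f y)) := by
      funext y
      ring
    rw [e1, integral_const_mul, integral_add (eE.mul eL).integrable (eE.const_mul _).integrable,
      integral_const_mul, ← hZ]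
    have e2 : ∫ y, Real.exp (ρ * f y) * L y ∂(gI ι) = m * Z := by
      have e3 : (fun y => Real.exp (ρ * f y) * L y) = fun y =>
          (x * (Real.exp (ρ * f y) * f y) - (∑ e, u e ^ 2) / 2 * Real.exp (ρ * f y)) +
          ((ρ + x) * (∑ e, u e * (Real.exp (ρ * f y) * g e y)) -
            ∑ e, u e * (y e * Real.exp (ρ * f y))) := by
        funext y
        rw [hL]
        simp only
        have h2 : ∑ e, u e * (Real.exp (ρ * f y) * g e y) =
            Real.exp (ρ * f y) * ∑ e, u e * g e y := by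
          rw [Finset.mul_sum]
          exact Finset.sum_congr rfl fun e _ => by ring
        have h3 : ∑ e, u e * (y e * Real.exp (ρ * f y)) =
            Real.exp (ρ * f y) * ∑ e, u e * y e := by
          rw [Finset.mul_sum]
          exact Finset.sum_congr rfl fun e _ => by ring
        rw [h2, h3]
        ring
      have i1 : EG fun y => x * (Real.exp (ρ * f y) * f y) := (eE.mul ef).const_mul x
      have i2 : EG fun y => (∑ e, u e ^ 2) / 2 * Real.exp (ρ * f y) := eE.const_mul _
      have i3 : ∀ e, EG fun y => u e * (Real.exp (ρ * f y) * g e y) := fun e =>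
        (eE.mul (hg e)).const_mul _
      have i4 : ∀ e, EG fun y => u e * (y e * Real.exp (ρ * f y)) := fun e =>
        ((EG.coord e).mul eE).const_mul _
      have i3' : EG fun y => (ρ + x) * ∑ e, u e * (Real.exp (ρ * f y) * g e y) :=
        (EG.sum Finset.univ fun e _ => i3 e).const_mul _
      have i4' : EG fun y => ∑ e, u e * (y e * Real.exp (ρ * f y)) :=
        EG.sum Finset.univ fun e _ => i4 e
      rw [e3, integral_add (i1.sub i2).integrable (i3'.sub i4').integrable,
        integral_sub i1.integrable i2.integrable, integral_sub i3'.integrable i4'.integrable,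
        integral_const_mul, integral_const_mul, integral_const_mul,
        integral_finsetSum _ fun e _ => (i3 e).integrable,
        integral_finsetSum _ fun e _ => (i4 e).integrable, ← hM1, ← hZ]
      simp_rw [integral_const_mul, ← hΓ, ibp]
      have h4 : ∑ e, u e * (ρ * (Z * Γ e)) = ρ * ∑ e, u e * (Z * Γ e) := by
        rw [Finset.mul_sum]
        exact Finset.sum_congr rfl fun e _ => by ring
      rw [h4, huG, hu2, hm]
      ring
    rw [e2]
    ring
  rw [hv]
  have h7 : Real.exp m * Z = Real.exp (m + Real.log Z) := by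
    rw [Real.exp_add, Real.exp_log hZ0]
  rw [h7]
  refine Real.exp_le_exp.2 ?_
  have h8 : ∫ w, f w ∂(gI ι) ≤ M1 := by
    have h9 := hJ.trans hM
    exact le_of_mul_le_mul_left h9 hρ
  have h10 := mul_le_mul_of_nonneg_left h8 hx
  rw [hm]
  linarith

end tilt

end Vale.Agent.P146.Tb
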