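import Vale.Agent.P146.R3.H453.TiltSys

set_option linter.all false

/-!
P146, R7 (B): one exponential moment bounds `φ(ρ) - E F`, `φ(ρ) = (1/ρ) log E exp (ρ F)`.

The disorder is `cos θ z + sin θ y`, `z` outside, `y` inside with the exponent `ρ`; the derivative
in `θ` of the free energy is `ρ sin θ cos θ Q(θ)`, and `sin² θ Q(θ)` is bounded by `sys_tilt_int`.
-/

open MeasureTheory ProbabilityTheory Filter Topology

namespace Vale.Agent.P146.Tb

open Vale.Agent.P157 Vale.Agent.P157.Lv Vale.Agent.P157.Lv.Sy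
open Vale.Agent.P157.Par (Exponents)
open Vale.Agent.P146.Ub (ls ls_regD ith ls_wH lin_ith)

/-! ### Riemann sums -/

lemma riem {f : ℝ → ℝ} {a b C : ℝ} (hab : a ≤ b)
    (h : ∀ t t', a ≤ t → t ≤ t' → t' ≤ b → f t' - f t ≤ C * (t' - t) ^ 2) : f b ≤ f a := by
  have key : ∀ n : ℕ, 0 < n → f b - f a ≤ C * (b - a) ^ 2 / n := by
    intro n hn
    have hn' : (0 : ℝ) < n := by exact_mod_cast hn
    set δ := (b - a) / n with hδ
    have hδ0 : 0 ≤ δ := div_nonneg (by linarith) hn'.le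
    have hnδ : n * δ = b - a := by rw [hδ]; field_simp
    have ind : ∀ k : ℕ, k ≤ n → f (a + k * δ) - f a ≤ k * (C * δ ^ 2) := by
      intro k
      induction k with
      | zero => intro _; simp
      | succ k ih =>
        intro hk
        have h1 := ih (by omega)
        have hk' : ((k : ℝ) + 1) ≤ n := by exact_mod_cast hk
        have h2 := h (a + k * δ) (a + (k + 1 : ℕ) * δ) (by have := mul_nonneg (Nat.cast_nonneg (α := ℝ) k) hδ0; linarith)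
          (by push_cast; nlinarith) (by push_cast; nlinarith)
        have h3 : a + ((k + 1 : ℕ) : ℝ) * δ - (a + k * δ) = δ := by push_cast; ring
        rw [h3] at h2
        push_cast at h2 ⊢
        linarith
    have h1 := ind n le_rfl
    rw [hnδ] at h1
    have e1 : a + (b - a) = b := by ring
    rw [e1] at h1
    refine h1.trans (le_of_eq ?_)
    rw [hδ]
    field_simp
  by_contra hcon
  push Not at hcon
  obtain ⟨n, hn⟩ := exists_nat_gt (|C * (b - a) ^ 2| / (f b - f a) + 1)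
  have h0 : 0 < f b - f a := by linarith
  have h1 : 0 ≤ |C * (b - a) ^ 2| / (f b - f a) := by positivity
  have hn0 : (0 : ℝ) < n := by linarith
  have hn1 : 0 < n := by exact_mod_cast hn0
  have h2 := key n hn1
  have h3 : |C * (b - a) ^ 2| < n * (f b - f a) := by
    have h4 : |C * (b - a) ^ 2| / (f b - f a) < n := by linarith
    rwa [div_lt_iff₀ h0] at h4
  rw [le_div_iff₀ hn0] at h2
  have h5 := le_abs_self (C * (b - a) ^ 2)
  linarith

/-! ### The system -/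

section two

variable {κ X : Type} [Fintype κ] [DecidableEq κ] [Fintype X] [DecidableEq X] [Nonempty X]

/-- the levels of the two copies -/
def tl : κ ⊕ κ → ℕ := Sum.elim (fun _ => 0) (fun _ => 1)

/-- the exponents -/
noncomputable def tm (ρ : ℝ) : ℕ → ℝ := fun l => if l = 0 then 0 else if l = 1 then ρ else 1

lemma tm_exp {ρ : ℝ} (h0 : 0 < ρ) (h1 : ρ < 1) : Exponents 1 (tm ρ) := by
  refine ⟨by simp [tm], by simp [tm], fun l hl => ?_⟩
  interval_cases l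
  · simpa [tm] using h0
  · simpa [tm] using h1

lemma tl_le (e : κ ⊕ κ) : tl e ≤ 1 := by
  rcases e with p | p
  · exact Nat.zero_le _
  · exact le_rfl

/-- the inner copy -/
noncomputable def tα (b : X → κ → ℝ) : X → κ ⊕ κ → ℝ := fun x => Sum.elim (fun _ => 0) (b x)

/-- the outer copy -/
noncomputable def tβ (b : X → κ → ℝ) : X → κ ⊕ κ → ℝ := fun x => Sum.elim (b x) (fun _ => 0)

/-- the system at the angle `θ` -/
noncomputable def ts (b : X → κ → ℝ) (ρ θ : ℝ) : Sy (κ ⊕ κ) X :=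
  ls tl 1 (tm ρ) 0 (ith 0 (tα b) (tβ b) θ)

/-- the log-partition function -/
noncomputable def FF (b : X → κ → ℝ) (g : κ → ℝ) : ℝ := Real.log (∑ x, Real.exp (∑ p, b x p * g p))

/-- the overlap term -/
noncomputable def Qf (b : X → κ → ℝ) (ρ θ : ℝ) : ℝ :=
  ∑ p, (ts b ρ θ).Ex (fun z _ => (ts b ρ θ).T 0 (fun _ x => b x p) z ^ 2)

lemma ts_reg {ρ : ℝ} (h0 : 0 < ρ) (h1 : ρ < 1) (b : X → κ → ℝ) (θ : ℝ) : (ts b ρ θ).Reg :=
  (ls_regD (tm_exp h0 h1) tl_le 0 _).toReg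

lemma ts_top (b : X → κ → ℝ) (ρ θ : ℝ) (z : κ ⊕ κ → ℝ) :
    (ts b ρ θ).top z = FF b (Vale.Agent.P146.Ub.Cv.mix (Real.cos θ) (Real.sin θ)
      (fun p => z (Sum.inl p)) (fun p => z (Sum.inr p))) := by
  show Real.log (∑ x, Real.exp (lin (ith 0 (tα b) (tβ b) θ x) z + 0)) = _
  unfold FF
  congr 1
  refine Finset.sum_congr rfl fun x _ => ?_
  congr 1
  rw [add_zero]
  unfold lin
  rw [Fintype.sum_sum_type, ← Finset.sum_add_distrib]
  refine Finset.sum_congr rfl fun p _ => ?_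
  simp only [ith, tα, tβ, Vale.Agent.P146.Ub.Cv.mix, Pi.zero_apply, Sum.elim_inl, Sum.elim_inr]
  ring

lemma FF_lip (b : X → κ → ℝ) : Lip (FF b) := by
  have h : FF b = (ls (fun _ => 0) 0 (fun l => (l : ℝ)) 0 b).top := by
    funext g
    show _ = Real.log (∑ x, Real.exp (lin (b x) g + 0))
    simp only [add_zero]
    rfl
  rw [h]
  have hm : Exponents 0 (fun l => (l : ℝ)) := by
    refine ⟨by simp, by simp, fun l hl => ?_⟩
    obtain rfl : l = 0 := by omega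
    simp
  exact (ls_regD hm (fun _ => le_rfl) 0 b).toReg.lip_top

lemma int_rot {h : (κ → ℝ) → ℝ} (hc : Continuous h) (θ : ℝ) :
    ∫ z : κ ⊕ κ → ℝ, h (Vale.Agent.P146.Ub.Cv.mix (Real.cos θ) (Real.sin θ)
      (fun p => z (Sum.inl p)) (fun p => z (Sum.inr p))) ∂(gI (κ ⊕ κ)) = ∫ g, h g ∂(gI κ) := by
  have h1 := Vale.Agent.P146.Ub.Cv.mp_split κ κ
  have h2 := Vale.Agent.P146.Ub.Cv.mp_mix (ι := κ) (Real.cos_sq_add_sin_sq θ)
  have h3 := h2.comp h1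
  have h4 := h3.map_eq
  have h5 : ∫ g, h g ∂(gI κ) = ∫ g, h g ∂(Vale.Agent.P146.gpi κ) := rfl
  rw [h5, ← h4, integral_map h3.measurable.aemeasurable hc.aestronglyMeasurable]
  rfl

lemma int_inr {h : (κ → ℝ) → ℝ} (hc : Continuous h) :
    ∫ z : κ ⊕ κ → ℝ, h (fun p => z (Sum.inr p)) ∂(gI (κ ⊕ κ)) = ∫ g, h g ∂(gI κ) := by
  have h1 := int_rot hc (Real.pi / 2)
  rw [← h1]
  congr 1
  funext z
  congr 1
  funext p
  simp [Vale.Agent.P146.Ub.Cv.mix]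

lemma int_inl {h : (κ → ℝ) → ℝ} (hc : Continuous h) :
    ∫ z : κ ⊕ κ → ℝ, h (fun p => z (Sum.inl p)) ∂(gI (κ ⊕ κ)) = ∫ g, h g ∂(gI κ) := by
  have h1 := int_rot hc 0
  rw [← h1]
  congr 1
  funext z
  congr 1
  funext p
  simp [Vale.Agent.P146.Ub.Cv.mix]

lemma ts_lg0 {ρ : ℝ} (b : X → κ → ℝ) (θ : ℝ) (z : κ ⊕ κ → ℝ) :
    (ts b ρ θ).lg 0 z = 1 / ρ * Real.log (∫ w, Real.exp (ρ * (ts b ρ θ).top
      (Lv.mix tl 0 z w)) ∂(gI (κ ⊕ κ))) := by
  have h1 : (0 : ℕ) < (ts b ρ θ).K := one_pos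
  rw [lg_step _ h1]
  have h2 : (ts b ρ θ).lg (0 + 1) = (ts b ρ θ).top := lg_top (ts b ρ θ)
  rw [h2]
  rfl

/-- the value at `θ = π / 2` -/
lemma fe_pi (b : X → κ → ℝ) (ρ : ℝ) :
    (ts b ρ (Real.pi / 2)).fe = 1 / ρ * Real.log (∫ g, Real.exp (ρ * FF b g) ∂(gI κ)) := by
  unfold Sy.fe
  have h1 : ∀ z, (ts b ρ (Real.pi / 2)).lg 0 z =
      1 / ρ * Real.log (∫ g, Real.exp (ρ * FF b g) ∂(gI κ)) := by
    intro z
    rw [ts_lg0]
    congr 2
    have hc : Continuous fun g => Real.exp (ρ * FF b g) :=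
      Real.continuous_exp.comp ((FF_lip b).continuous.const_mul ρ |> fun h => h)
    rw [← int_inr hc]
    refine integral_congr_ae (Filter.Eventually.of_forall fun w => ?_)
    simp only
    rw [ts_top]
    congr 3
    funext p
    simp [Vale.Agent.P146.Ub.Cv.mix, Lv.mix, tl]
  simp only [h1]
  simp

/-- the value at `θ = 0` -/
lemma fe_zero {ρ : ℝ} (hρ : 0 < ρ) (b : X → κ → ℝ) :
    (ts b ρ 0).fe = ∫ g, FF b g ∂(gI κ) := by
  unfold Sy.fe
  have h1 : ∀ z, (ts b ρ 0).lg 0 z = FF b (fun p => z (Sum.inl p)) := by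
    intro z
    rw [ts_lg0]
    have h2 : ∀ w, (ts b ρ 0).top (Lv.mix tl 0 z w) = FF b (fun p => z (Sum.inl p)) := by
      intro w
      rw [ts_top]
      congr 1
      funext p
      simp [Vale.Agent.P146.Ub.Cv.mix, Lv.mix, tl]
    simp only [h2]
    rw [integral_const, probReal_univ, one_smul, Real.log_exp]
    field_simp
  simp only [h1]
  exact int_inl (FF_lip b).continuous

/-- the bracket -/
lemma brk_ts (b : X → κ → ℝ) {ρ : ℝ} (h0 : 0 < ρ) (h1 : ρ < 1) (θ : ℝ)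
    (hw : (ls tl 1 (tm ρ) 0 (0 : X → κ ⊕ κ → ℝ)).wH
      (it (ls tl 1 (tm ρ) 0 (0 : X → κ ⊕ κ → ℝ)).H (fun x : ℝ => x) (tα b) (tβ b) θ) = ts b ρ θ) :
    brk (ls tl 1 (tm ρ) 0 (0 : X → κ ⊕ κ → ℝ)) (fun x : ℝ => x) (fun _ => 1) (fun _ => 0)
      (tα b) (tβ b) θ = ρ * Qf b ρ θ := by
  have hR := ts_reg h0 h1 b θ
  unfold brk
  rw [hw]
  have e1 : (fun (z : κ ⊕ κ → ℝ) (x : X) => ((fun _ : ℝ => (0 : ℝ)) (itU (tα b) (tβ b) θ z x) +
      (fun _ : ℝ => (1 : ℝ)) (itU (tα b) (tβ b) θ z x) ^ 2) *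
      (∑ e, tα b x e ^ 2 - ∑ e, tβ b x e ^ 2)) = fun _ _ => 0 := by
    funext z x
    simp only [Fintype.sum_sum_type, tα, tβ, Sum.elim_inl, Sum.elim_inr]
    simp
  have hT0 : ∀ l ≤ 1, (ts b ρ θ).Ex (fun z _ => (ts b ρ θ).T l (fun _ _ => (0 : ℝ)) z ^ 2) = 0 := by
    intro l hl
    have e2 : (fun (z : κ ⊕ κ → ℝ) (_ : X) => (ts b ρ θ).T l (fun _ _ => (0 : ℝ)) z ^ 2) =
        fun _ _ => 0 := by
      funext z _
      rw [hR.T_const (show l ≤ (ts b ρ θ).K from hl)]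
      norm_num
    rw [e2, hR.Ex_const]
  have hK : (ls tl 1 (tm ρ) 0 (0 : X → κ ⊕ κ → ℝ)).K + 1 = 2 := rfl
  have hp0 : (ls tl 1 (tm ρ) 0 (0 : X → κ ⊕ κ → ℝ)).p 0 = ρ := by
    show tm ρ (0 + 1) - tm ρ 0 = ρ
    simp [tm]
  have hlv : (ls tl 1 (tm ρ) 0 (0 : X → κ ⊕ κ → ℝ)).lev = tl := rfl
  rw [e1, hR.Ex_const, hK, Finset.sum_range_succ, Finset.sum_range_one, hp0, hlv]
  have s0 : ∑ e : κ ⊕ κ, (if tl e ≤ 0 then
      ((ts b ρ θ).Ex (fun z _ => (ts b ρ θ).T 0 (fun z x => (fun _ : ℝ => (1 : ℝ))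
        (itU (tα b) (tβ b) θ z x) * tα b x e) z ^ 2) -
      (ts b ρ θ).Ex (fun z _ => (ts b ρ θ).T 0 (fun z x => (fun _ : ℝ => (1 : ℝ))
        (itU (tα b) (tβ b) θ z x) * tβ b x e) z ^ 2)) else 0) = -Qf b ρ θ := by
    rw [Fintype.sum_sum_type]
    simp only [tl, tα, tβ, Sum.elim_inl, Sum.elim_inr, one_mul, mul_zero]
    rw [Finset.sum_congr rfl fun p _ => if_pos le_rfl]
    simp only [hT0 0 (Nat.zero_le _), zero_sub]
    rw [Finset.sum_neg_distrib]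
    simp [Qf]
  have s1 : ∑ e : κ ⊕ κ, (if tl e ≤ 1 then
      ((ts b ρ θ).Ex (fun z _ => (ts b ρ θ).T 1 (fun z x => (fun _ : ℝ => (1 : ℝ))
        (itU (tα b) (tβ b) θ z x) * tα b x e) z ^ 2) -
      (ts b ρ θ).Ex (fun z _ => (ts b ρ θ).T 1 (fun z x => (fun _ : ℝ => (1 : ℝ))
        (itU (tα b) (tβ b) θ z x) * tβ b x e) z ^ 2)) else 0) = 0 := by
    rw [Fintype.sum_sum_type]
    simp only [tl, tα, tβ, Sum.elim_inl, Sum.elim_inr, one_mul, mul_zero]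
    simp only [hT0 1 le_rfl, zero_sub, sub_zero]
    simp
  rw [s0, s1]
  ring

end two

end Vale.Agent.P146.Tb
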