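import Vale.Agent.P146.R3.H453.TiltInt

set_option linter.all false

/-!
P146, R7 (B): the bound `φ(ρ) - E F ≤ ρ V t₀² / 2 + ρ A log (1 / sin t₀)`,
`A = (2 / x²) (log E exp ((ρ + x) F) - (ρ + x) E F)`.
-/

open MeasureTheory ProbabilityTheory Filter Topology

namespace Vale.Agent.P146.Tb

open Vale.Agent.P157 Vale.Agent.P157.Lv Vale.Agent.P157.Lv.Sy
open Vale.Agent.P157.Par (Exponents)
open Vale.Agent.P146.Ub (ls ls_regD ith ls_wH lin_ith)

section two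

variable {κ X : Type} [Fintype κ] [DecidableEq κ] [Fintype X] [DecidableEq X] [Nonempty X]

lemma ts_wH (b : X → κ → ℝ) (ρ θ : ℝ) :
    (ls tl 1 (tm ρ) 0 (0 : X → κ ⊕ κ → ℝ)).wH
      (it (ls tl 1 (tm ρ) 0 (0 : X → κ ⊕ κ → ℝ)).H (fun x : ℝ => x) (tα b) (tβ b) θ) =
      ts b ρ θ := by
  refine ls_wH _ _ _ _ _ _ _ fun z x => ?_
  rw [lin_ith]
  show lin ((0 : X → κ ⊕ κ → ℝ) x) z + 0 + itU (tα b) (tβ b) θ z x = _
  ring

/-- the step inequality -/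
lemma ts_step {ρ : ℝ} (h0 : 0 < ρ) (h1 : ρ < 1) (b : X → κ → ℝ) :
    ∃ M₀ : ℝ, 0 ≤ M₀ ∧ ∀ t t', t ≤ t' → (ts b ρ t').fe - (ts b ρ t).fe ≤
      (t' - t) * (Real.sin t' * Real.cos t' * (ρ * Qf b ρ t')) + (t' - t) ^ 2 * M₀ := by
  have hR := ls_regD (tm_exp h0 h1) tl_le 0 (0 : X → κ ⊕ κ → ℝ)
  have hf : Pot (fun x : ℝ => x) (fun _ => 1) (fun _ => 0) 1 0 :=
    ⟨fun x => hasDerivAt_id x, fun x => hasDerivAt_const x 1, fun _ => by simp, fun _ => by simp⟩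
  have hs : Lv.Sep (fun e (_ : κ ⊕ κ → ℝ) x => (0 : X → κ ⊕ κ → ℝ) x e) (tα b) (tβ b) := by
    refine ⟨fun e x x' => ?_, fun e x h z y => rfl⟩
    rcases e with p | p
    · simp [tα]
    · simp [tβ]
  obtain ⟨M₀, hM0, hM⟩ := li2_ExM hR hf (tα b) (tβ b)
  refine ⟨M₀, hM0, fun t t' htt => ?_⟩
  have h := li2_step hR hf hs hM htt
  rw [ts_wH, ts_wH, brk_ts b h0 h1 t' (ts_wH b ρ t')] at h
  exact h

lemma nh_b (b : X → κ → ℝ) (p : κ) : Nh fun (_ : κ ⊕ κ → ℝ) x => b x p := Nh.snd fun x => b x p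

lemma Qf_nonneg {ρ : ℝ} (h0 : 0 < ρ) (h1 : ρ < 1) (b : X → κ → ℝ) (θ : ℝ) : 0 ≤ Qf b ρ θ := by
  have hR := ts_reg h0 h1 b θ
  refine Finset.sum_nonneg fun p _ => ?_
  rw [← hR.Ex_const 0]
  exact hR.Ex_mono (fun _ => EG.const 0)
    (Nh.pow (Nh.fst (hR.eg_T (Nat.zero_le _) (nh_b b p))) 2) fun z x => sq_nonneg _

lemma Qf_le {ρ : ℝ} (h0 : 0 < ρ) (h1 : ρ < 1) (b : X → κ → ℝ) {V : ℝ}
    (hV : ∀ x, ∑ p, b x p ^ 2 ≤ V) (θ : ℝ) : Qf b ρ θ ≤ V := by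
  have hR := ts_reg h0 h1 b θ
  have h2 : ∀ p, (ts b ρ θ).Ex (fun z _ => (ts b ρ θ).T 0 (fun _ x => b x p) z ^ 2) ≤
      (ts b ρ θ).Ex (fun _ x => b x p ^ 2) := by
    intro p
    have n2 : Nh fun (_ : κ ⊕ κ → ℝ) x => b x p ^ 2 := Nh.snd fun x => b x p ^ 2
    rw [← hR.Ex_T (Nat.zero_le _) n2]
    exact hR.Ex_mono (Nh.pow (Nh.fst (hR.eg_T (Nat.zero_le _) (nh_b b p))) 2)
      (Nh.fst (hR.eg_T (Nat.zero_le _) n2)) fun z x => hR.sq_T_le (Nat.zero_le _) (nh_b b p) z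
  have h3 : ∑ p, (ts b ρ θ).Ex (fun _ x => b x p ^ 2) =
      (ts b ρ θ).Ex (fun _ x => ∑ p, b x p ^ 2) :=
    (hR.Ex_sum Finset.univ fun p _ => (Nh.snd fun x => b x p ^ 2)).symm
  refine (Finset.sum_le_sum fun p _ => h2 p).trans ?_
  rw [h3, ← hR.Ex_const V]
  exact hR.Ex_mono (Nh.snd fun x => ∑ p, b x p ^ 2) (fun _ => EG.const V) fun z x => hV x

/-- **The bound for `sin² θ Q(θ)`.** -/
lemma sin_Qf {ρ : ℝ} (h0 : 0 < ρ) (h1 : ρ < 1) (b : X → κ → ℝ) {x : ℝ} (hx : 0 < x) (θ : ℝ) :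
    Real.sin θ ^ 2 * Qf b ρ θ ≤ 2 / x ^ 2 *
      (Real.log (∫ g, Real.exp ((ρ + x) * FF b g) ∂(gI κ)) - (ρ + x) * ∫ g, FF b g ∂(gI κ)) := by
  have hk := sys_tilt_int (tm_exp h0 h1) tl_le 0 (ith 0 (tα b) (tβ b) θ) hx.le
  have em : tm ρ 1 = ρ := by simp [tm]
  have e0 : ls tl 1 (tm ρ) 0 (ith 0 (tα b) (tβ b) θ) = ts b ρ θ := rfl
  rw [e0, em] at hk
  have e1 : ∫ z, (ts b ρ θ).top z ∂(gI (κ ⊕ κ)) = ∫ g, FF b g ∂(gI κ) := by
    rw [← int_rot (FF_lip b).continuous θ]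
    exact integral_congr_ae (Filter.Eventually.of_forall fun z => ts_top b ρ θ z)
  have e2 : ∫ z, Real.exp ((ρ + x) * (ts b ρ θ).top z) ∂(gI (κ ⊕ κ)) =
      ∫ g, Real.exp ((ρ + x) * FF b g) ∂(gI κ) := by
    have hc : Continuous fun g => Real.exp ((ρ + x) * FF b g) :=
      Real.continuous_exp.comp (continuous_const.mul (FF_lip b).continuous)
    rw [← int_rot hc θ]
    refine integral_congr_ae (Filter.Eventually.of_forall fun z => ?_)
    simp only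
    rw [ts_top]
  have e3 : ∑ e, (if tl e ≤ 0 then 0 else (ts b ρ θ).Ex
        (fun z _ => (ts b ρ θ).T 0 (fun _ x => ith 0 (tα b) (tβ b) θ x e) z ^ 2)) =
      Real.sin θ ^ 2 * Qf b ρ θ := by
    rw [Fintype.sum_sum_type]
    have f1 : ∀ p : κ, tl (Sum.inl p : κ ⊕ κ) ≤ 0 := fun p => le_rfl
    have f2 : ∀ p : κ, ¬ tl (Sum.inr p : κ ⊕ κ) ≤ 0 := fun p => by
      show ¬ (1 : ℕ) ≤ 0
      omega
    simp only [f1, f2, if_true, if_false, Finset.sum_const_zero, zero_add]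
    unfold Qf
    rw [Finset.mul_sum]
    refine Finset.sum_congr rfl fun p _ => ?_
    rw [← Ex_const_mul]
    congr 1
    funext z _
    have f3 : (fun (_ : κ ⊕ κ → ℝ) (x : X) => ith 0 (tα b) (tβ b) θ x (Sum.inr p)) =
        fun _ x => Real.sin θ * b x p := by
      funext z x
      simp [ith, tα, tβ]
    rw [f3, T_const_mul]
    ring
  rw [e1, e2, e3] at hk
  have hpos : 0 < ∫ g, Real.exp ((ρ + x) * FF b g) ∂(gI κ) :=
    integral_exp_pos ((FF_lip b).exp_eg _).integrable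
  rw [← Real.le_log_iff_exp_le hpos] at hk
  rw [div_mul_eq_mul_div, le_div_iff₀ (by positivity)]
  nlinarith

lemma sin_tan {t t' : ℝ} (h0 : 0 ≤ t) (htt : t ≤ t') (h1 : t' ≤ Real.pi) :
    Real.cos t' * (t' - t) ≤ Real.sin t' - Real.sin t := by
  rcases htt.eq_or_lt with hlt | hlt
  · subst hlt; simp
  · obtain ⟨ξ, hξ, hξ2⟩ := exists_hasDerivAt_eq_slope Real.sin Real.cos hlt
      Real.continuous_sin.continuousOn (fun s _ => Real.hasDerivAt_sin s)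
    rw [eq_div_iff (by linarith)] at hξ2
    rw [← hξ2]
    refine mul_le_mul_of_nonneg_right ?_ (by linarith)
    exact Real.cos_le_cos_of_nonneg_of_le_pi (by linarith [hξ.1]) h1 hξ.2.le

/-- **The difference `φ(ρ) - E F`.** -/
theorem phi_sub_le {ρ : ℝ} (h0 : 0 < ρ) (h1 : ρ < 1) (b : X → κ → ℝ) {V : ℝ}
    (hV : ∀ x, ∑ p, b x p ^ 2 ≤ V) {x : ℝ} (hx : 0 < x) {t₀ : ℝ} (ht : 0 < t₀)
    (ht1 : t₀ ≤ Real.pi / 2) :
    1 / ρ * Real.log (∫ g, Real.exp (ρ * FF b g) ∂(gI κ)) - ∫ g, FF b g ∂(gI κ) ≤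
      ρ * V * t₀ ^ 2 / 2 + ρ * (2 / x ^ 2 *
        (Real.log (∫ g, Real.exp ((ρ + x) * FF b g) ∂(gI κ)) -
          (ρ + x) * ∫ g, FF b g ∂(gI κ))) * (-Real.log (Real.sin t₀)) := by
  obtain ⟨M₀, hM0, hstep⟩ := ts_step h0 h1 b
  obtain ⟨A, hA⟩ : ∃ A, A = 2 / x ^ 2 * (Real.log (∫ g, Real.exp ((ρ + x) * FF b g) ∂(gI κ)) -
          (ρ + x) * ∫ g, FF b g ∂(gI κ)) := ⟨_, rfl⟩
  have hQA : ∀ θ, Real.sin θ ^ 2 * Qf b ρ θ ≤ A := fun θ => by
    rw [hA]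
    exact sin_Qf h0 h1 b hx θ
  have hA0 : 0 ≤ A := le_trans (mul_nonneg (sq_nonneg _) (Qf_nonneg h0 h1 b 0)) (hQA 0)
  rw [← hA]
  have hpi := Real.pi_pos
  have hV0 : 0 ≤ V := (Qf_nonneg h0 h1 b 0).trans (Qf_le h0 h1 b hV 0)
  -- the first piece
  have p1 : (ts b ρ t₀).fe - ρ * V * t₀ ^ 2 / 2 ≤ (ts b ρ 0).fe - ρ * V * (0 : ℝ) ^ 2 / 2 := by
    refine riem (f := fun t => (ts b ρ t).fe - ρ * V * t ^ 2 / 2) (C := M₀ + ρ * V / 2) ht.le ?_
    intro t t' ha htt hb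
    have h2 := hstep t t' htt
    have hs0 : 0 ≤ Real.sin t' := Real.sin_nonneg_of_nonneg_of_le_pi (by linarith) (by linarith)
    have hs1 : Real.sin t' ≤ t' := Real.sin_le (by linarith)
    have hc0 : 0 ≤ Real.cos t' := Real.cos_nonneg_of_mem_Icc ⟨by linarith, by linarith⟩
    have hc1 := Real.cos_le_one t'
    have h3 : Real.sin t' * Real.cos t' * (ρ * Qf b ρ t') ≤ t' * (ρ * V) := by
      have h4 : Real.sin t' * Real.cos t' ≤ t' := by nlinarith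
      have h5 := Qf_nonneg h0 h1 b t'
      have h6 := Qf_le h0 h1 b hV t'
      exact mul_le_mul h4 (mul_le_mul_of_nonneg_left h6 h0.le) (by positivity) (by linarith)
    have h7 := mul_le_mul_of_nonneg_left h3 (by linarith : 0 ≤ t' - t)
    nlinarith
  -- the second piece
  have p2 : (ts b ρ (Real.pi / 2)).fe - ρ * A * Real.log (Real.sin (Real.pi / 2)) ≤
      (ts b ρ t₀).fe - ρ * A * Real.log (Real.sin t₀) := by
    refine riem (f := fun t => (ts b ρ t).fe - ρ * A * Real.log (Real.sin t)) (C := M₀) ht1 ?_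
    intro t t' ha htt hb
    have h2 := hstep t t' htt
    have hs : 0 < Real.sin t := Real.sin_pos_of_pos_of_lt_pi (by linarith) (by linarith)
    have hs' : 0 < Real.sin t' := Real.sin_pos_of_pos_of_lt_pi (by linarith) (by linarith)
    have hc0 : 0 ≤ Real.cos t' := Real.cos_nonneg_of_mem_Icc ⟨by linarith, by linarith⟩
    have h3 : Real.sin t' * Real.cos t' * (ρ * Qf b ρ t') ≤
        Real.cos t' / Real.sin t' * (ρ * A) := by
      have h4 : Real.sin t' * Real.cos t' * (ρ * Qf b ρ t') =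
          Real.cos t' / Real.sin t' * (ρ * (Real.sin t' ^ 2 * Qf b ρ t')) := by
        field_simp
      rw [h4]
      exact mul_le_mul_of_nonneg_left (mul_le_mul_of_nonneg_left (hQA t') h0.le)
        (div_nonneg hc0 hs'.le)
    have h5 : Real.cos t' / Real.sin t' * (t' - t) ≤
        Real.log (Real.sin t') - Real.log (Real.sin t) := by
      have h6 := Real.log_le_sub_one_of_pos (div_pos hs hs')
      rw [Real.log_div hs.ne' hs'.ne'] at h6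
      have h7 := sin_tan (by linarith : 0 ≤ t) htt (by linarith)
      have h8 : Real.cos t' / Real.sin t' * (t' - t) ≤ 1 - Real.sin t / Real.sin t' := by
        rw [div_mul_eq_mul_div, div_le_iff₀ hs']
        have : (1 - Real.sin t / Real.sin t') * Real.sin t' = Real.sin t' - Real.sin t := by
          field_simp
        rw [this]
        exact h7
      linarith
    have h9 := mul_le_mul_of_nonneg_left h3 (by linarith : 0 ≤ t' - t)
    have h10 := mul_le_mul_of_nonneg_left h5 (mul_nonneg h0.le hA0)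
    nlinarith
  rw [Real.sin_pi_div_two, Real.log_one, fe_pi] at p2
  rw [fe_zero h0] at p1
  linarith

end two

end Vale.Agent.P146.Tb
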