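import Vale.Agent.P146.R3.H453.Tilt

set_option linter.all false

/-!
P146, R7 (B): the tilted convexity inequality for a linear system with the levels `0, 1`.
-/

open MeasureTheory ProbabilityTheory Filter Topology

namespace Vale.Agent.P146.Tb

open Vale.Agent.P157 Vale.Agent.P157.Lv Vale.Agent.P157.Lv.Sy
open Vale.Agent.P157.Par (Exponents)
open Vale.Agent.P146.Ub (ls ls_regD)

section sys

variable {ι X : Type} [Fintype ι] [DecidableEq ι] [Fintype X] [DecidableEq X] [Nonempty X]
  {lev : ι → ℕ} {K : ℕ} {m : ℕ → ℝ} {c : ℝ} {a : X → ι → ℝ}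

/-- the tangent inequality for the log-partition function -/
lemma top_tangent (lev : ι → ℕ) (K : ℕ) (m : ℕ → ℝ) (c : ℝ) (a : X → ι → ℝ) (w v : ι → ℝ) :
    (ls lev K m c a).top w + ∑ e, (ls lev K m c a).av (fun _ x => a x e) w * v e ≤
      (ls lev K m c a).top (fun e => w e + v e) := by
  obtain ⟨S, hS⟩ : ∃ S, S = ls lev K m c a := ⟨_, rfl⟩
  rw [← hS]
  have h1 := exp_top_sub (S := S) (H' := fun z x => lin (a x) (fun e => z e + v e) + c) w
  have h2 : (S.wH (fun z x => lin (a x) (fun e => z e + v e) + c)).top w =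
      S.top (fun e => w e + v e) := by rw [hS]; rfl
  have h3 : ∀ x, lin (a x) (fun e => w e + v e) + c - S.H w x = ∑ e, a x e * v e := by
    intro x
    rw [hS]
    show lin (a x) (fun e => w e + v e) + c - (lin (a x) w + c) = _
    unfold lin
    rw [add_sub_add_right_eq_sub, ← Finset.sum_sub_distrib]
    exact Finset.sum_congr rfl fun e _ => by ring
  rw [h2] at h1
  simp only [h3] at h1
  obtain ⟨M, hM⟩ : ∃ M, M = ∑ e, S.av (fun _ x => a x e) w * v e := ⟨_, rfl⟩
  have h4 : ∑ x, S.gb w x * ∑ e, a x e * v e = M := by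
    rw [hM]
    simp only [Sy.av, Finset.sum_mul, Finset.mul_sum]
    rw [Finset.sum_comm]
    refine Finset.sum_congr rfl fun e _ => Finset.sum_congr rfl fun x _ => by ring
  have h5 : Real.exp M ≤ ∑ x, S.gb w x * Real.exp (∑ e, a x e * v e) := by
    have h6 : ∑ x, S.gb w x * (Real.exp M * (∑ e, a x e * v e + 1 - M)) = Real.exp M := by
      have e1 : ∀ x, S.gb w x * (Real.exp M * (∑ e, a x e * v e + 1 - M)) =
          Real.exp M * (S.gb w x * ∑ e, a x e * v e) + Real.exp M * (1 - M) * S.gb w x :=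
        fun x => by ring
      simp_rw [e1]
      rw [Finset.sum_add_distrib, ← Finset.mul_sum, ← Finset.mul_sum, h4, S.sum_gb]
      ring
    rw [← h6]
    refine Finset.sum_le_sum fun x _ => mul_le_mul_of_nonneg_left ?_ (S.gb_pos w x).le
    have h7 := Real.add_one_le_exp (∑ e, a x e * v e - M)
    have h8 : Real.exp (∑ e, a x e * v e) =
        Real.exp M * Real.exp (∑ e, a x e * v e - M) := by
      rw [← Real.exp_add]; congr 1; ring
    rw [h8]
    exact mul_le_mul_of_nonneg_left (by linarith) (Real.exp_pos M).le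
  rw [← h1, Real.exp_le_exp] at h5
  rw [← hM]
  linarith

/-- The inequality for every value of the level `0`. -/
theorem sys_tilt (hm : Exponents 1 m) (hl : ∀ e, lev e ≤ 1) (c : ℝ) (a : X → ι → ℝ) {x : ℝ}
    (hx : 0 ≤ x) (z : ι → ℝ) :
    Real.exp ((m 1 + x) * J lev 0 (ls lev 1 m c a).top z + x ^ 2 / 2 * ∑ e,
        (if lev e ≤ 0 then 0 else (ls lev 1 m c a).T 0 (fun _ x => a x e) z) ^ 2) ≤
      J lev 0 (fun z => Real.exp ((m 1 + x) * (ls lev 1 m c a).top z)) z := by
  have hR := ls_regD hm hl c a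
  obtain ⟨S, hS⟩ : ∃ S, S = ls lev 1 m c a := ⟨_, rfl⟩
  rw [← hS] at hR ⊢
  have hlev : S.lev = lev := by rw [hS]; rfl
  have hK : S.K = 1 := by rw [hS]; rfl
  have hmm : S.m = m := by rw [hS]; rfl
  have hReg := hR.toReg
  have hm1 : 0 < m 1 := by rw [← hmm]; exact hReg.pos
  have htop : Lip S.top := hReg.lip_top
  have hK0 : 0 < S.K := by rw [hK]; exact one_pos
  have hlg1 : S.lg 1 = S.top := by
    have := lg_top S
    rwa [hK] at this
  -- the function of the upper level
  have hf : Lip fun w => S.top (Lv.mix lev 0 z w) := by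
    obtain ⟨L, hL, h⟩ := htop
    refine ⟨L, hL, fun y y' => (h _ _).trans (mul_le_mul_of_nonneg_left ?_ hL)⟩
    rw [pi_norm_le_iff_of_nonneg (norm_nonneg _)]
    intro e
    show ‖Lv.mix lev 0 z y e - Lv.mix lev 0 z y' e‖ ≤ _
    unfold Lv.mix
    split_ifs
    · simp
    · exact norm_le_pi_norm (y - y') e
  have hav : ∀ e, EG (S.av (fun _ x => a x e)) := fun e => hReg.eg_av (Nh.snd fun x => a x e)
  have hmixr : ∀ {h : (ι → ℝ) → ℝ}, EG h → EG fun w => h (Lv.mix lev 0 z w) := by
    intro h hh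
    obtain ⟨C, b, hC, hb, h1⟩ := hh.bdd
    refine ⟨hh.meas.comp (measurable_mix_right lev 0 z), C * Real.exp (b * ‖z‖), b, by positivity,
      hb, fun w => (h1 _).trans ?_⟩
    rw [mul_assoc, ← Real.exp_add, ← mul_add]
    exact mul_le_mul_of_nonneg_left (Real.exp_le_exp.2
      (mul_le_mul_of_nonneg_left (norm_mix_le z w) hb)) hC
  have hg : ∀ e, EG fun w => if lev e ≤ 0 then 0 else S.av (fun _ x => a x e) (Lv.mix lev 0 z w) := by
    intro e
    by_cases he : lev e ≤ 0
    · simp only [if_pos he]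
      exact EG.const 0
    · simp only [if_neg he]
      exact hmixr (hav e)
  have hpd : ∀ e, PD e (fun w => S.top (Lv.mix lev 0 z w))
      (fun w => if lev e ≤ 0 then 0 else S.av (fun _ x => a x e) (Lv.mix lev 0 z w)) := by
    intro e
    by_cases he : lev e ≤ 0
    · simp only [if_pos he]
      refine PD.of_indep fun y t => ?_
      congr 1
      funext j
      unfold Lv.mix
      by_cases hj : j = e
      · subst hj
        rw [if_pos he, if_pos he]
      · rw [Function.update_of_ne hj]
    · simp only [if_neg he]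
      intro y t
      have h1 := hR.pd_top e (Lv.mix lev 0 z y) t
      have e1 : ∀ s, Function.update (Lv.mix lev 0 z y) e s =
          Lv.mix lev 0 z (Function.update y e s) := by
        intro s
        funext j
        unfold Lv.mix
        by_cases hj : j = e
        · subst hj
          rw [Function.update_self, if_neg he, Function.update_self]
        · rw [Function.update_of_ne hj, Function.update_of_ne hj]
      simp only [e1] at h1
      exact h1
  have hconv : ∀ w v : ι → ℝ, S.top (Lv.mix lev 0 z w) +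
      ∑ e, (if lev e ≤ 0 then 0 else S.av (fun _ x => a x e) (Lv.mix lev 0 z w)) * v e ≤
        S.top (Lv.mix lev 0 z (fun e => w e + v e)) := by
    intro w v
    have h1 := top_tangent lev 1 m c a (Lv.mix lev 0 z w) (fun e => if lev e ≤ 0 then 0 else v e)
    rw [← hS] at h1
    have e1 : (fun e => Lv.mix lev 0 z w e + (if lev e ≤ 0 then 0 else v e)) =
        Lv.mix lev 0 z (fun e => w e + v e) := by
      funext e
      unfold Lv.mix
      split_ifs <;> simp
    rw [e1] at h1
    refine le_trans (le_of_eq ?_) h1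
    congr 1
    refine Finset.sum_congr rfl fun e _ => ?_
    split_ifs <;> simp
  have hZ : Real.exp (m 1 * S.lg 0 z) =
      ∫ w, Real.exp (m 1 * S.top (Lv.mix lev 0 z w)) ∂(gI ι) := by
    have h1 := hReg.J_exp_lg hK0 z
    rw [hmm, hlev, zero_add, hlg1] at h1
    exact h1.symm
  have hΓ : ∀ e, Real.exp (m 1 * S.lg 0 z) *
      (if lev e ≤ 0 then 0 else S.T 0 (fun _ x => a x e) z) =
      ∫ w, Real.exp (m 1 * S.top (Lv.mix lev 0 z w)) *
        (if lev e ≤ 0 then 0 else S.av (fun _ x => a x e) (Lv.mix lev 0 z w)) ∂(gI ι) := by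
    intro e
    by_cases he : lev e ≤ 0
    · simp [Nat.le_zero.1 he]
    · simp only [if_neg he]
      have h1 : S.T 0 (fun _ x => a x e) z = ∫ w, S.dn 0 (Lv.mix lev 0 z w) *
          S.av (fun _ x => a x e) (Lv.mix lev 0 z w) ∂(gI ι) := by
        unfold Sy.T J
        rw [hlev]
      rw [h1, ← integral_const_mul]
      refine integral_congr_ae (Filter.Eventually.of_forall fun w => ?_)
      simp only
      have h2 : S.dn 0 (Lv.mix lev 0 z w) =
          Real.exp (m 1 * (S.top (Lv.mix lev 0 z w) - S.lg 0 z)) := by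
        rw [dn_step S hK0]
        have h3 : S.dn (0 + 1) (Lv.mix lev 0 z w) = 1 := by
          have := dn_top S (Lv.mix lev 0 z w)
          rwa [hK] at this
        have h4 : S.lg 0 (Lv.mix lev 0 z w) = S.lg 0 z := by
          have := hReg.dep_lg (Nat.zero_le _) z w
          rwa [hlev] at this
        rw [h3, mul_one, hmm, zero_add, hlg1, h4]
      rw [h2, ← mul_assoc, ← Real.exp_add]
      congr 2
      ring
  have h := tilt_exp hf hg hpd hconv hm1 hx hZ hΓ
  exact h

/-- The integrated inequality. -/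
theorem sys_tilt_int (hm : Exponents 1 m) (hl : ∀ e, lev e ≤ 1) (c : ℝ) (a : X → ι → ℝ) {x : ℝ}
    (hx : 0 ≤ x) :
    Real.exp ((m 1 + x) * (∫ z, (ls lev 1 m c a).top z ∂(gI ι)) + x ^ 2 / 2 * ∑ e,
        (if lev e ≤ 0 then 0 else (ls lev 1 m c a).Ex
          (fun z _ => (ls lev 1 m c a).T 0 (fun _ x => a x e) z ^ 2))) ≤
      ∫ z, Real.exp ((m 1 + x) * (ls lev 1 m c a).top z) ∂(gI ι) := by
  have hR := ls_regD hm hl c a
  have hk := sys_tilt hm hl c a hx
  obtain ⟨S, hS⟩ : ∃ S, S = ls lev 1 m c a := ⟨_, rfl⟩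
  rw [← hS] at hR hk ⊢
  have hlev : S.lev = lev := by rw [hS]; rfl
  have hReg := hR.toReg
  have htop : Lip S.top := hReg.lip_top
  have eT : ∀ e, EG (S.T 0 (fun _ x => a x e)) := fun e =>
    hReg.eg_T (Nat.zero_le _) (Nh.snd fun x => a x e)
  have eT2 : ∀ e, EG fun z => (if lev e ≤ 0 then 0 else S.T 0 (fun _ x => a x e) z) ^ 2 := by
    intro e
    by_cases he : lev e ≤ 0
    · simp only [if_pos he]
      exact EG.const _
    · simp only [if_neg he]
      exact (eT e).pow 2
  have e1 : EG fun z => (m 1 + x) * J lev 0 S.top z := (htop.eg.J lev 0).const_mul _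
  have e2 : EG fun z => x ^ 2 / 2 * ∑ e,
      (if lev e ≤ 0 then 0 else S.T 0 (fun _ x => a x e) z) ^ 2 :=
    (EG.sum Finset.univ fun e _ => eT2 e).const_mul _
  have e3 : EG fun z => Real.exp ((m 1 + x) * S.top z) := htop.exp_eg _
  have e4 : EG (J lev 0 fun z => Real.exp ((m 1 + x) * S.top z)) := e3.J lev 0
  have e5 : EG fun z => Real.exp ((m 1 + x) * J lev 0 S.top z + x ^ 2 / 2 * ∑ e,
      (if lev e ≤ 0 then 0 else S.T 0 (fun _ x => a x e) z) ^ 2) := by
    refine e4.mono (Real.measurable_exp.comp (e1.add e2).meas) fun z => ?_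
    rw [abs_of_pos (Real.exp_pos _)]
    exact (hk z).trans (le_abs_self _)
  have j1 := Vale.Agent.P146.Ub.Cv.exp_integral_le (e1.add e2).integrable e5.integrable
  have j2 := integral_mono e5.integrable e4.integrable hk
  have e6 : ∫ z, J lev 0 (fun z => Real.exp ((m 1 + x) * S.top z)) z ∂(gI ι) =
      ∫ z, Real.exp ((m 1 + x) * S.top z) ∂(gI ι) := integral_J e3
  rw [e6] at j2
  refine le_trans (le_of_eq ?_) (j1.trans j2)
  congr 1
  rw [integral_add e1.integrable e2.integrable, integral_const_mul, integral_const_mul,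
    integral_J htop.eg, integral_finsetSum _ fun e _ => (eT2 e).integrable]
  congr 2
  refine Finset.sum_congr rfl fun e _ => ?_
  by_cases he : lev e ≤ 0
  · simp [Nat.le_zero.1 he]
  · simp only [if_neg he]
    refine hReg.Ex_dep (lc_dep_comp ?_ fun t => t ^ 2) ((eT e).pow 2)
    exact S.dep_T 0 _

end sys

end Vale.Agent.P146.Tb
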