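import Vale.Agent.P146.R3.H453.Plug
import Vale.Agent.P146.R3.H49.Grate

set_option linter.all false

/-!
P146, R7: all the upper bounds with common constants.
-/

open MeasureTheory ProbabilityTheory Filter Topology Set

namespace Vale.Agent.P146.Tb

open Vale.Agent.P146.H605

/-- the upper bounds -/
def Upper (β p k D : ℝ) : Prop := ∀ n : ℕ, 1 ≤ n →
      0 ≤ n * p - ∫ g, freeEnergy n β g ∂(disorder n) ∧
      n * p - ∫ g, freeEnergy n β g ∂(disorder n) ≤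
        D * (n : ℝ) ^ (21 / 26 : ℝ) * (1 + Real.log n) ^ 2 ∧
      Var[freeEnergy n β; disorder n] ≤ D * (n : ℝ) ^ (11 / 13 : ℝ) * (1 + Real.log n) ^ 3 ∧
      (∀ t : ℝ, 0 ≤ t →
        (disorder n).real {g | t * ((n : ℝ) ^ (11 / 26 : ℝ) * (1 + Real.log n) ^ (3 / 2 : ℝ)) ≤
          |freeEnergy n β g - ∫ g, freeEnergy n β g ∂(disorder n)|} ≤ D * Real.exp (-(k * t))) ∧
      (∀ t : ℝ, 0 ≤ t →
        (disorder n).real {g | freeEnergy n β g ≤ ∫ g, freeEnergy n β g ∂(disorder n) - t} ≤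
          Real.exp (-(k * t ^ 2 / ((n : ℝ) ^ (12 / 13 : ℝ) * (1 + Real.log n) ^ (3 / 2 : ℝ))))) ∧
      (∀ t : ℝ, 0 ≤ t → t < 1 →
        (1 - t) * (β ^ 2 / 2 * (n * crossOverlap n β t - 1)) ≤ D * (n : ℝ) ^ (1 / 5 : ℝ) *
          (1 + (n * p - ∫ g, freeEnergy n β g ∂(disorder n))) ^ (4 / 5 : ℝ) ∧
        crossOverlap n β t ≤ D * (n : ℝ) ^ (-(2 / 13) : ℝ) * (1 + Real.log n) ^ 2 / (1 - t)) ∧
      (∀ t : ℝ, 0 ≤ t → t ≤ 1 →
        (1 - 1 / β) ^ 2 - D * (n : ℝ) ^ (-(5 / 52) : ℝ) * (1 + Real.log n) -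
          (1 - t) * (β ^ 2 * n / 2) ≤ crossOverlap n β t) ∧
      (∀ r : ℝ, 0 < r → r ≤ 1 / (16 * (1 + Real.log n)) →
        n * p - ∫ g, freeEnergy n β g ∂(disorder n) ≤
          2 * (n * p - 1 / r * Real.log (∫ g, Real.exp (r * freeEnergy n β g) ∂(disorder n))) +
            D * n * r ^ 5 * (1 + Real.log n) ^ 5 + D) ∧
      (∀ r : ℝ, 0 < r → r ≤ 1 → 1 ≤ r ^ 6 * n →
        n * p - 1 / r * Real.log (∫ g, Real.exp (r * freeEnergy n β g) ∂(disorder n)) ≤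
          D * (1 + Real.log n) * ((n : ℝ) ^ (4 / 5 : ℝ) * r ^ (-(1 / 5) : ℝ)))

lemma Upper.mono {β p k D k' D' : ℝ} (h : Upper β p k D) (hk : k' ≤ k) (hD0 : 0 ≤ D)
    (hD : D ≤ D') : Upper β p k' D' := by
  intro n hn
  have hn1 : (1 : ℝ) ≤ n := by exact_mod_cast hn
  have hn0 : (0 : ℝ) < n := by linarith
  have hl0 : 0 ≤ Real.log n := Real.log_nonneg hn1
  obtain ⟨L, hL⟩ : ∃ L, L = 1 + Real.log n := ⟨_, rfl⟩
  have hL0 : 0 < L := by linarith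
  obtain ⟨h1, h2, h3, h4, h5, h6, h7, h8, h9⟩ := h n hn
  rw [← hL] at h2 h3 h4 h5 h6 h7 h8 h9 ⊢
  refine ⟨h1, h2.trans ?_, h3.trans ?_, fun t ht => (h4 t ht).trans ?_,
    fun t ht => (h5 t ht).trans (Real.exp_le_exp.2 (neg_le_neg ?_)), fun t ht ht1 => ⟨?_, ?_⟩,
    fun t ht ht1 => le_trans ?_ (h7 t ht ht1), fun r hr hr1 => (h8 r hr hr1).trans ?_,
    fun r hr hr1 hr6 => (h9 r hr hr1 hr6).trans ?_⟩
  · gcongr
  · gcongr
  · have h10 := mul_le_mul_of_nonneg_right hk ht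
    exact mul_le_mul hD (Real.exp_le_exp.2 (neg_le_neg h10)) (Real.exp_pos _).le (hD0.trans hD)
  · gcongr
  · refine (h6 t ht ht1).1.trans ?_
    gcongr
  · refine (h6 t ht ht1).2.trans ?_
    have : 0 < 1 - t := by linarith
    gcongr
  · have : D * (n : ℝ) ^ (-(5 / 52) : ℝ) * L ≤ D' * (n : ℝ) ^ (-(5 / 52) : ℝ) * L := by
      gcongr
    linarith
  · have : D * n * r ^ 5 * L ^ 5 ≤ D' * n * r ^ 5 * L ^ 5 := by gcongr
    linarith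
  · gcongr

/-- **All the upper bounds.** -/
theorem upper_all {β : ℝ} (hβ : 1 < β) : ∃ k D : ℝ, 0 < k ∧ 1 ≤ D ∧ Upper β (Sx.pv β) k D := by
  have hR := mr hβ.le
  obtain ⟨D₁, hD₁, h1⟩ := mr hβ.le
  obtain ⟨D₂, hD₂, h2⟩ := var_rate hβ.le hR
  obtain ⟨D₃, k₃, hD₃, hk₃, h3⟩ := conc_rate hβ.le hR
  obtain ⟨k₄, hk₄, h4⟩ := low_dev hβ.le hR
  obtain ⟨D₅, hD₅, h5⟩ := prof_fs hβ.le
  obtain ⟨D₆, hD₆, h6⟩ := order_rate2 hβ hR
  obtain ⟨D₇, hD₇, hmom, hup, -⟩ := Sx.rt_moment hβ.le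
  obtain ⟨D₈, hD₈, h8⟩ := Vale.Agent.P146.R3.A.rate hβ.le
  obtain ⟨k, hk⟩ : ∃ k, k = min k₃ k₄ := ⟨_, rfl⟩
  have k1 : k ≤ k₃ := by rw [hk]; exact min_le_left _ _
  have k2 : k ≤ k₄ := by rw [hk]; exact min_le_right _ _
  have k0 : 0 < k := by rw [hk]; exact lt_min hk₃ hk₄
  obtain ⟨D, hD⟩ : ∃ D, D = D₁ + D₂ + D₃ + D₅ + D₆ + 33216 * D₇ + β ^ 2 / 2 + D₈ := ⟨_, rfl⟩
  have hb : 0 ≤ β ^ 2 := sq_nonneg β
  have e1 : D₁ ≤ D := by linarith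
  have e2 : D₂ ≤ D := by linarith
  have e3 : D₃ ≤ D := by linarith
  have e5 : D₅ ≤ D := by linarith
  have e6 : D₆ ≤ D := by linarith
  have e7 : 33216 * D₇ ≤ D := by linarith
  have e8 : D₈ ≤ D := by linarith
  have e9 : β ^ 2 / 2 ≤ D := by linarith
  refine ⟨k, D, k0, by linarith, fun n hn => ?_⟩
  have hn1 : (1 : ℝ) ≤ n := by exact_mod_cast hn
  have hn0 : (0 : ℝ) < n := by linarith
  have hl0 : 0 ≤ Real.log n := Real.log_nonneg hn1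
  obtain ⟨L, hL⟩ : ∃ L, L = 1 + Real.log n := ⟨_, rfl⟩
  have hL0 : 0 < L := by linarith
  have g1 := h1 n hn
  obtain ⟨g2, g2'⟩ := h2 n hn
  have g3 := h3 n hn
  have g4 := h4 n hn
  have g5 := h5 n hn
  have g6 := h6 n hn
  have g7 := fun {r : ℝ} (hr : 0 < r) (hr1 : r ≤ 1 / (16 * (1 + Real.log n))) =>
    mean_le hn β (P := n * Sx.pv β) (C := D₇) (by linarith) (hmom n hn) (hup n hn) hr hr1
  have g8 := h8 n hn
  have g9 := hup n hn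
  rw [← hL] at g1 g2' g6 ⊢
  simp only [← hL] at g2 g3 g4 g7 g8
  refine ⟨by linarith, ?_, g2'.trans ?_, fun t ht => (g3 t ht).trans ?_,
    fun t ht => (g4 t ht).trans (Real.exp_le_exp.2 (neg_le_neg ?_)), fun t ht ht1 => ⟨?_, ?_⟩,
    fun t ht ht1 => ?_, fun r hr hr1 => (g7 hr hr1).trans ?_, fun r hr hr1 hr6 => ?_⟩
  · have : D₁ * (n : ℝ) ^ (21 / 26 : ℝ) * L ^ 2 ≤ D * (n : ℝ) ^ (21 / 26 : ℝ) * L ^ 2 := by
      gcongr
    linarith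
  · gcongr
  · have h10 := mul_le_mul_of_nonneg_right k1 ht
    exact mul_le_mul e3 (Real.exp_le_exp.2 (neg_le_neg h10)) (Real.exp_pos _).le (by linarith)
  · gcongr
  · refine (g5 t ht ht1).trans ?_
    have h10 : 0 ≤ 1 + (n * Sx.pv β - ∫ g, freeEnergy n β g ∂(disorder n)) := by linarith
    gcongr
  · refine (g2 t ht ht1).trans ?_
    have : 0 < 1 - t := by linarith
    gcongr
  · have h10 := crossOverlap_stable n β hn ht ht1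
    have h11 : D₆ * (n : ℝ) ^ (-(5 / 52) : ℝ) * L ≤ D * (n : ℝ) ^ (-(5 / 52) : ℝ) * L := by
      gcongr
    linarith
  · have h10 : 33216 * D₇ * n * r ^ 5 * L ^ 5 ≤ D * n * r ^ 5 * L ^ 5 := by gcongr
    linarith
  · have h10 := g8 r hr hr1 hr6
    have h11 : 0 < r ^ (-(1 / 5) : ℝ) := Real.rpow_pos_of_pos hr _
    have h12 : D₈ * L * ((n : ℝ) ^ (4 / 5 : ℝ) * r ^ (-(1 / 5) : ℝ)) ≤
        D * L * ((n : ℝ) ^ (4 / 5 : ℝ) * r ^ (-(1 / 5) : ℝ)) := by gcongr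
    linarith

end Vale.Agent.P146.Tb
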