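import Vale.Agent.P146.R3.H453.GR

set_option linter.all false

/-!
P146, R7: the sharp moment law for `x ≥ n ^ (-κ)`, every `κ < 1 / 26`, and the sharp upper tail for
`s ≥ n ^ (-b)`, every `b < 5 / 26`.
-/

open MeasureTheory ProbabilityTheory Filter Topology Set

namespace Vale.Agent.P146.Tb

open Vale.Agent.P157.Par
open Vale.Agent.P146.Gap
open Vale.Agent.P146.Pw2
open Vale.Agent.P146.Lb
open Vale.Agent.P146.Sh
open Vale.Agent.P367.Cl

/-- the lower bound at a point of the grid -/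
theorem gr_vx {β : ℝ} (hβ : 1 < β) : ∃ C : ℝ, 0 ≤ C ∧ ∀ K d : ℕ, 1 ≤ d → d ≤ K →
    ∀ n : ℕ, 1 ≤ n → ∀ w : ℝ, 0 < w → w ^ 6 = d * n → (K : ℝ) + 1 ≤ w ^ 5 →
      n * (Real.log 2 + Vx β (gm K d)) ≤
      1 / gm K d * Real.log (∫ g, Real.exp (gm K d * freeEnergy n β g) ∂(disorder n)) +
        C * (1 + Real.log ((K : ℝ) + 1)) *
            (n / ((K : ℝ) + 1) + 2 * (((K : ℝ) + 1) * w ^ 4 / d)) + C * (1 + Real.log n) := by
  obtain ⟨C, hC, h⟩ := gr_w (gr (β := β) (by linarith))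
  refine ⟨C, hC, fun K d hd1 hd n hn w hw hw6 hw5 => ?_⟩
  have h1 := h K d (Vx β (gm K d)) hd1 hd (fun q hq hq1 hq0 => by
    rw [Ld.cor_me]
    have hb : 0 < β := by linarith
    have hr : BPath β K (fun l => β ^ 2 * q l) := by
      refine ⟨?_, ⟨?_, ?_⟩, ?_⟩
      · simp only
        rw [hq0 0 (by omega), mul_zero]
      · simp only
        have := hq.1
        positivity
      · intro l hl
        simp only
        have := hq.2 l hl
        gcongr
      · simp only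
        have h2 : 0 ≤ β ^ 2 := by positivity
        nlinarith
    have h2 := vx_le hβ hd1 hd hr (fun l hl => by rw [hq0 l hl, mul_zero])
    rw [← gap2_SKr_eq hb] at h2
    have e : (fun l => β ^ 2 * q l / β ^ 2) = q := by
      funext l
      field_simp
    simp only [e] at h2
    exact h2) n hn w hw hw6 hw5
  rw [Ld.cor_me] at h1
  exact h1

/-- a point of the grid just below `x`, with a small error -/
theorem win_pt {C ε n x L : ℝ} (hC : 0 ≤ C) (hε : 0 < ε) (hε1 : ε ≤ 1) (hn : 1 ≤ n)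
    (hL : L = 1 + Real.log n)
    (hLC : 24 * C / ε + 2 ≤ L) (hx0 : 0 < x) (hx2 : x ≤ 1 / 2)
    (hxn : 32 * L ^ 10 ≤ n * x ^ 26) :
    ∃ (K d : ℕ) (w : ℝ), 1 ≤ d ∧ d ≤ K ∧ 0 < w ∧ w ^ 6 = d * n ∧ (K : ℝ) + 1 ≤ w ^ 5 ∧
      x * (1 - 1 / L) ≤ gm K d ∧ gm K d ≤ x ∧
      C * (1 + Real.log ((K : ℝ) + 1)) * (n / ((K : ℝ) + 1) + 2 * (((K : ℝ) + 1) * w ^ 4 / d)) +
        C * L ≤ ε / 4 * x ^ 5 * n := by
  have hn0 : 0 < n := by linarith
  have hCε : 0 ≤ 24 * C / ε := by positivity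
  have hL2 : 2 ≤ L := by linarith
  have hL0 : 0 < L := by linarith
  have hL1 : 1 ≤ L := by linarith
  have hx1 : x ≤ 1 := by linarith
  have hx5 : 0 < x ^ 5 := by positivity
  -- the number of the levels
  obtain ⟨k, hk⟩ : ∃ k : ℕ, k = ⌈L ^ 2 / x ^ 5⌉₊ := ⟨_, rfl⟩
  have hz1 : 1 ≤ L ^ 2 / x ^ 5 := by
    rw [le_div_iff₀ hx5, one_mul]
    have h1 : x ^ 5 ≤ 1 := pow_le_one₀ hx0.le hx1
    have h2 : 1 ≤ L ^ 2 := one_le_pow₀ hL1
    linarith
  have hk1 : L ^ 2 / x ^ 5 ≤ k := by rw [hk]; exact Nat.le_ceil _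
  have hk2 : (k : ℝ) ≤ 2 * (L ^ 2 / x ^ 5) := by
    have h1 : (k : ℝ) < L ^ 2 / x ^ 5 + 1 := by rw [hk]; exact Nat.ceil_lt_add_one (by positivity)
    linarith
  have hk0 : 0 < (k : ℝ) := by linarith
  have hkn : 1 ≤ k := by
    have : (1 : ℝ) ≤ k := hz1.trans hk1
    exact_mod_cast this
  -- `x k ≥ 2`
  have hxk : L ^ 2 / x ^ 4 ≤ x * k := by
    have h1 := mul_le_mul_of_nonneg_left hk1 hx0.le
    have e : x * (L ^ 2 / x ^ 5) = L ^ 2 / x ^ 4 := by field_simp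
    rwa [e] at h1
  have hxk2 : 4 * L ≤ x * k := by
    refine le_trans ?_ hxk
    rw [le_div_iff₀ (by positivity)]
    have h1 : x ^ 4 ≤ (1 / 2) ^ 4 := pow_le_pow_left₀ hx0.le hx2 4
    norm_num at h1
    have h2 : 4 * L * x ^ 4 ≤ 4 * L * (1 / 16) := mul_le_mul_of_nonneg_left h1 (by positivity)
    nlinarith
  obtain ⟨d, hd⟩ : ∃ d : ℕ, d = ⌊x * k⌋₊ := ⟨_, rfl⟩
  have hd1 : (d : ℝ) ≤ x * k := by rw [hd]; exact Nat.floor_le (by positivity)
  have hd2 : x * k - 1 ≤ d := by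
    have h1 := Nat.lt_floor_add_one (x * k)
    rw [← hd] at h1
    linarith
  have hd3 : x * k / 2 ≤ d := by linarith
  have hd0 : (0 : ℝ) < d := by linarith
  have hdn : 1 ≤ d := by
    have : 0 < d := by exact_mod_cast hd0
    omega
  have hdk : d < k := by
    have h1 : (d : ℝ) ≤ 1 / 2 * k := hd1.trans (mul_le_mul_of_nonneg_right hx2 hk0.le)
    have : (d : ℝ) < k := by linarith
    exact_mod_cast this
  have hK : ((k - 1 : ℕ) : ℝ) + 1 = k := by
    rw [Nat.cast_sub hkn]; simp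
  -- the width
  obtain ⟨w, hw⟩ : ∃ w : ℝ, w = ((d : ℝ) * n) ^ (1 / 6 : ℝ) := ⟨_, rfl⟩
  have hw0 : 0 < w := by rw [hw]; positivity
  have hw6 : w ^ 6 = d * n := by
    rw [hw, ← Real.rpow_natCast, ← Real.rpow_mul (by positivity)]
    norm_num
  have hd1' : (1 : ℝ) ≤ d := by exact_mod_cast hdn
  -- `L² ≤ n x⁵ / ...`
  have hnx5 : 32 * L ^ 10 ≤ n * x ^ 5 := by
    refine hxn.trans (mul_le_mul_of_nonneg_left ?_ hn0.le)
    exact pow_le_pow_of_le_one hx0.le hx1 (by norm_num)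
  have hkn' : (k : ℝ) ≤ n := by
    refine hk2.trans ?_
    rw [mul_div_assoc', div_le_iff₀ hx5]
    have h1 : L ^ 2 ≤ L ^ 10 := pow_le_pow_right₀ hL1 (by norm_num)
    have h2 : 0 ≤ L ^ 10 := by positivity
    linarith
  have hw5 : (k : ℝ) ≤ w ^ 5 := by
    refine le_of_pow_le_pow_left₀ (n := 6) (by norm_num) (by positivity) ?_
    have e1 : (w ^ 5) ^ 6 = (d * n) ^ 5 := by rw [← pow_mul, mul_comm 5 6, pow_mul, hw6]
    rw [e1]
    have h1 : (k : ℝ) ^ 6 ≤ (2 * (L ^ 2 / x ^ 5)) ^ 6 := pow_le_pow_left₀ hk0.le hk2 6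
    have h2 : n ^ 5 ≤ (d * n) ^ 5 :=
      pow_le_pow_left₀ hn0.le (le_mul_of_one_le_left hn0.le hd1') 5
    refine h1.trans (le_trans ?_ h2)
    have e2 : (2 * (L ^ 2 / x ^ 5)) ^ 6 = 64 * L ^ 12 / x ^ 30 := by
      field_simp
      ring
    rw [e2, div_le_iff₀ (by positivity)]
    have h3 : (32 * L ^ 10) ^ 5 ≤ (n * x ^ 26) ^ 5 := pow_le_pow_left₀ (by positivity) hxn 5
    have h4 : (n * x ^ 26) ^ 5 ≤ n ^ 5 * x ^ 30 := by
      have e3 : (n * x ^ 26) ^ 5 = n ^ 5 * x ^ 130 := by rw [mul_pow, ← pow_mul]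
      rw [e3]
      exact mul_le_mul_of_nonneg_left (pow_le_pow_of_le_one hx0.le hx1 (by norm_num))
        (by positivity)
    have h5 : 64 * L ^ 12 ≤ (32 * L ^ 10) ^ 5 := by
      have e4 : (32 * L ^ 10) ^ 5 = 33554432 * L ^ 50 := by
        rw [mul_pow, ← pow_mul]
        norm_num
      rw [e4]
      have h6 : L ^ 12 ≤ L ^ 50 := pow_le_pow_right₀ hL1 (by norm_num)
      have h7 : 0 ≤ L ^ 50 := by positivity
      linarith
    linarith
  refine ⟨k - 1, d, w, hdn, by omega, hw0, hw6, by rw [hK]; exact hw5, ?_, ?_, ?_⟩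
  · unfold gm
    rw [hK, le_div_iff₀ hk0]
    have e : x * (1 - 1 / L) * k = x * k - x * k / L := by ring
    rw [e]
    have h1 : 1 ≤ x * k / L := by
      rw [le_div_iff₀ hL0]
      linarith
    linarith
  · unfold gm
    rw [hK, div_le_iff₀ hk0]
    exact hd1
  · rw [hK]
    obtain ⟨Z, hZ⟩ : ∃ Z, Z = n * x ^ 5 := ⟨_, rfl⟩
    have hZ0 : 0 < Z := by rw [hZ]; positivity
    -- the first error
    have e1 : n / k ≤ Z / L ^ 2 := by
      rw [div_le_div_iff₀ hk0 (by positivity)]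
      rw [div_le_iff₀ hx5] at hk1
      rw [hZ]
      calc n * L ^ 2 ≤ n * (k * x ^ 5) := mul_le_mul_of_nonneg_left hk1 hn0.le
        _ = n * x ^ 5 * k := by ring
    -- the second error
    have e2 : (k : ℝ) * w ^ 4 / d ≤ Z / L ^ 2 := by
      have h1 : (k : ℝ) / d ≤ 2 / x := by
        rw [div_le_div_iff₀ hd0 hx0]
        linarith
      have h2 : w ^ 4 ≤ n * x ^ 6 / (2 * L ^ 2) := by
        refine le_of_pow_le_pow_left₀ (n := 3) (by norm_num) (by positivity) ?_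
        have e3 : (w ^ 4) ^ 3 = (d * n) ^ 2 := by rw [← pow_mul, ← hw6, ← pow_mul]
        have e4 : (n * x ^ 6 / (2 * L ^ 2)) ^ 3 = n ^ 3 * x ^ 18 / (8 * L ^ 6) := by
          field_simp
          ring
        rw [e3, e4, le_div_iff₀ (by positivity)]
        have h3 : (d : ℝ) ≤ 2 * (L ^ 2 / x ^ 4) := by
          refine hd1.trans ?_
          have h4 := mul_le_mul_of_nonneg_left hk2 hx0.le
          refine h4.trans (le_of_eq ?_)
          field_simp
        have h5 : (d * n) ^ 2 ≤ (2 * (L ^ 2 / x ^ 4) * n) ^ 2 :=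
          pow_le_pow_left₀ (by positivity) (mul_le_mul_of_nonneg_right h3 hn0.le) 2
        have e5 : (2 * (L ^ 2 / x ^ 4) * n) ^ 2 * (8 * L ^ 6) = 32 * L ^ 10 * (n ^ 2 / x ^ 8) := by
          field_simp
          ring
        calc (d * n) ^ 2 * (8 * L ^ 6) ≤ (2 * (L ^ 2 / x ^ 4) * n) ^ 2 * (8 * L ^ 6) :=
              mul_le_mul_of_nonneg_right h5 (by positivity)
          _ = 32 * L ^ 10 * (n ^ 2 / x ^ 8) := e5
          _ ≤ (n * x ^ 26) * (n ^ 2 / x ^ 8) := mul_le_mul_of_nonneg_right hxn (by positivity)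
          _ = n ^ 3 * x ^ 18 := by field_simp
      have h3 : (k : ℝ) * w ^ 4 / d = k / d * w ^ 4 := by ring
      rw [h3]
      calc (k : ℝ) / d * w ^ 4 ≤ 2 / x * (n * x ^ 6 / (2 * L ^ 2)) :=
            mul_le_mul h1 h2 (by positivity) (by positivity)
        _ = Z / L ^ 2 := by rw [hZ]; field_simp
    have e3 : 1 + Real.log k ≤ L := by
      have := Real.log_le_log hk0 hkn'
      linarith
    have hk1r : (1 : ℝ) ≤ k := hz1.trans hk1
    have e3' : 0 ≤ 1 + Real.log k := by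
      have := Real.log_nonneg hk1r
      linarith
    have e4 : C * (1 + Real.log k) * (n / k + 2 * (k * w ^ 4 / d)) ≤ 3 * C * (Z / L) := by
      have h1 : n / k + 2 * (k * w ^ 4 / d) ≤ 3 * (Z / L ^ 2) := by linarith
      calc C * (1 + Real.log k) * (n / k + 2 * (k * w ^ 4 / d)) ≤ C * L * (3 * (Z / L ^ 2)) :=
            mul_le_mul (mul_le_mul_of_nonneg_left e3 hC) h1 (by positivity) (by positivity)
        _ = 3 * C * (Z / L) := by field_simp
    have hCL : 24 * C ≤ ε * L := by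
      have h1 : 24 * C / ε ≤ L := by linarith
      rw [div_le_iff₀ hε] at h1
      linarith
    have e5 : 3 * C * (Z / L) ≤ ε / 8 * Z := by
      have h1 : 24 * C * (Z / L) ≤ ε * L * (Z / L) :=
        mul_le_mul_of_nonneg_right hCL (by positivity)
      have h2 : ε * L * (Z / L) = ε * Z := by field_simp
      rw [h2] at h1
      linarith
    have e6 : C * L ≤ ε / 8 * Z := by
      rw [hZ]
      have h1 : 24 * C * L ≤ ε * L * L := mul_le_mul_of_nonneg_right hCL hL0.le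
      have h2 : L * L ≤ L ^ 10 := by
        rw [← pow_two]
        exact pow_le_pow_right₀ hL1 (by norm_num)
      have h3 : ε * (32 * L ^ 10) ≤ ε * (n * x ^ 5) := mul_le_mul_of_nonneg_left hnx5 hε.le
      have h4 : ε * (L * L) ≤ ε * L ^ 10 := mul_le_mul_of_nonneg_left h2 hε.le
      have h5 : 0 ≤ ε * L ^ 10 := by positivity
      nlinarith
    have e7 : ε / 4 * x ^ 5 * n = ε / 8 * Z + ε / 8 * Z := by rw [hZ]; ring
    rw [e7]
    linarith

/-- **The sharp constant of the exponential moments, uniformly in `x ≥ n ^ (-κ)`.** -/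
theorem sharp_moment {β : ℝ} (hβ : 1 < β) {A : ℝ} (hA : 0 < A)
    (hlim : Tendsto (fun x => (Vx β x - P0 β) / x ^ 5) (𝓝[>] 0) (𝓝 A)) {κ : ℝ}
    (hκ : κ < 1 / 26) {ε : ℝ} (hε' : 0 < ε) :
    ∃ x₀ : ℝ, 0 < x₀ ∧ ∃ N : ℕ, ∀ n ≥ N, ∀ x : ℝ, (n : ℝ) ^ (-κ) ≤ x → x ≤ x₀ →
      |Real.log (∫ g, Real.exp (x * freeEnergy n β g) ∂(disorder n)) - x * (n * Sx.pv β) -
        A * n * x ^ 6| ≤ ε * n * x ^ 6 := by
  obtain ⟨C, hC, hdn⟩ := gr_vx hβ
  obtain ⟨ε', hεe⟩ : ∃ ε', ε' = min ε 1 := ⟨_, rfl⟩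
  have hε : 0 < ε' := by rw [hεe]; exact lt_min hε' one_pos
  have hε1 : ε' ≤ 1 := by rw [hεe]; exact min_le_right _ _
  have hεle : ε' ≤ ε := by rw [hεe]; exact min_le_left _ _
  have h1 : ∀ᶠ x in 𝓝[>] (0 : ℝ), |(Vx β x - P0 β) / x ^ 5 - A| < ε' / 4 := by
    have := hlim.eventually (Metric.ball_mem_nhds A (by positivity : 0 < ε' / 4))
    simpa [Real.dist_eq] using this
  obtain ⟨u, hu, h2⟩ := mem_nhdsGT_iff_exists_Ioo_subset.1 h1
  have hu0 : 0 < u := hu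
  have hV : ∀ x, 0 < x → x < u → |Vx β x - P0 β - A * x ^ 5| ≤ ε' / 4 * x ^ 5 := by
    intro x hx hxu
    have h3 : |(Vx β x - P0 β) / x ^ 5 - A| < ε' / 4 := h2 ⟨hx, hxu⟩
    have hx5 : 0 < x ^ 5 := by positivity
    have e : Vx β x - P0 β - A * x ^ 5 = ((Vx β x - P0 β) / x ^ 5 - A) * x ^ 5 := by
      field_simp
    rw [e, abs_mul, abs_of_pos hx5]
    exact mul_le_mul_of_nonneg_right h3.le hx5.le
  -- the exponent
  obtain ⟨κ', hκ'⟩ : ∃ κ', κ' = max κ 0 := ⟨_, rfl⟩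
  have hκ0 : 0 ≤ κ' := by rw [hκ']; exact le_max_right _ _
  have hκ1 : κ' < 1 / 26 := by rw [hκ']; exact max_lt hκ (by norm_num)
  have hκκ : κ ≤ κ' := by rw [hκ']; exact le_max_left _ _
  obtain ⟨η, hη⟩ : ∃ η, η = (1 - 26 * κ') / 20 := ⟨_, rfl⟩
  have hη0 : 0 < η := by rw [hη]; linarith
  have hlogη : ∀ᶠ n : ℕ in atTop, Real.log n ≤ (n : ℝ) ^ η := by
    have h := (isLittleO_log_rpow_atTop hη0).bound one_pos
    have h' := (tendsto_natCast_atTop_atTop (R := ℝ)).eventually h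
    filter_upwards [h', eventually_ge_atTop 1] with n hn hn1
    rw [Real.norm_eq_abs, Real.norm_eq_abs, one_mul,
      abs_of_nonneg (by positivity : 0 ≤ (n : ℝ) ^ η)] at hn
    exact (le_abs_self _).trans hn
  have htη : Tendsto (fun n : ℕ => (n : ℝ) ^ η) atTop atTop :=
    (tendsto_rpow_atTop hη0).comp tendsto_natCast_atTop_atTop
  obtain ⟨M, hM⟩ : ∃ M : ℝ, M = 2 + 20 * A / ε' + 24 * C / ε' := ⟨_, rfl⟩
  have hM1 : 0 ≤ 20 * A / ε' := by positivity
  have hM2 : 0 ≤ 24 * C / ε' := by positivity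
  have htl : Tendsto (fun n : ℕ => Real.log (n : ℝ)) atTop atTop :=
    Real.tendsto_log_atTop.comp tendsto_natCast_atTop_atTop
  obtain ⟨N, hN⟩ := eventually_atTop.1 (((htl.eventually_ge_atTop M).and
    (eventually_ge_atTop 1)).and (hlogη.and (htη.eventually_ge_atTop (32 * 2 ^ 10))))
  refine ⟨min (u / 2) (1 / 2), lt_min (by positivity) (by norm_num), N,
    fun n hn x hx hxx => ?_⟩
  obtain ⟨⟨hwM, hn1⟩, hlη, hnη⟩ := hN n hn
  have hn1' : (1 : ℝ) ≤ n := by exact_mod_cast hn1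
  have hn0 : (0 : ℝ) < n := by linarith
  obtain ⟨L, hL⟩ : ∃ L, L = 1 + Real.log n := ⟨_, rfl⟩
  have hLM : M ≤ L := by linarith
  have hL1 : 1 ≤ L := by linarith
  have hL0 : 0 < L := by linarith
  have hx0 : 0 < x := lt_of_lt_of_le (by positivity) hx
  have hxu : x < u := by
    have := hxx.trans (min_le_left _ _)
    linarith
  have hx2 : x ≤ 1 / 2 := hxx.trans (min_le_right _ _)
  have hx5 : 0 < x ^ 5 := by positivity
  -- the window
  have hxn : 32 * L ^ 10 ≤ n * x ^ 26 := by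
    have h3 : (n : ℝ) ^ (-κ') ≤ x :=
      (Real.rpow_le_rpow_of_exponent_le hn1' (by linarith)).trans hx
    have h4 : ((n : ℝ) ^ (-κ')) ^ 26 ≤ x ^ 26 := pow_le_pow_left₀ (by positivity) h3 26
    have h5 : (n : ℝ) * ((n : ℝ) ^ (-κ')) ^ 26 = ((n : ℝ) ^ η) ^ 20 := by
      rw [← Real.rpow_natCast, ← Real.rpow_mul hn0.le, ← Real.rpow_natCast, ← Real.rpow_mul hn0.le]
      nth_rewrite 1 [← Real.rpow_one (n : ℝ)]
      rw [← Real.rpow_add hn0]
      congr 1
      rw [hη]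
      push_cast
      ring
    have h6 : ((n : ℝ) ^ η) ^ 20 ≤ n * x ^ 26 := by
      rw [← h5]
      exact mul_le_mul_of_nonneg_left h4 hn0.le
    refine le_trans ?_ h6
    obtain ⟨T, hT⟩ : ∃ T, T = (n : ℝ) ^ η := ⟨_, rfl⟩
    rw [← hT] at hlη hnη ⊢
    have hT1 : 1 ≤ T := le_trans (by norm_num) hnη
    have h7 : L ≤ 2 * T := by linarith
    have h8 : L ^ 10 ≤ (2 * T) ^ 10 := pow_le_pow_left₀ hL0.le h7 10
    calc 32 * L ^ 10 ≤ 32 * (2 * T) ^ 10 := mul_le_mul_of_nonneg_left h8 (by norm_num)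
      _ = 32 * 2 ^ 10 * T ^ 10 := by rw [mul_pow]; ring
      _ ≤ T * T ^ 10 := mul_le_mul_of_nonneg_right hnη (by positivity)
      _ = T ^ 11 := by ring
      _ ≤ T ^ 20 := pow_le_pow_right₀ hT1 (by norm_num)
  have hup := shfin_up (by linarith : 0 < β) hn1 hx0 (by linarith)
  have hVx := abs_le.1 (hV x hx0 hxu)
  have hgoal : |Real.log (∫ g, Real.exp (x * freeEnergy n β g) ∂(disorder n)) -
      x * (n * Sx.pv β) - A * n * x ^ 6| ≤ ε' * n * x ^ 6 := by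
    rw [shfin_pv, abs_le]
    constructor
    · -- the lower bound
      obtain ⟨K, d, w, hd1, hdK, hw0, hw6, hw5, hdx5, hdx, herr⟩ :=
        win_pt hC hε hε1 hn1' hL (by linarith) hx0 hx2 hxn
      have h3 := hdn K d hd1 hdK n hn1 w hw0 hw6 hw5
      rw [← hL] at h3
      obtain ⟨R, hR⟩ : ∃ R : ℝ, R = C * (1 + Real.log ((K : ℝ) + 1)) *
            (n / ((K : ℝ) + 1) + 2 * (((K : ℝ) + 1) * w ^ 4 / d)) := ⟨_, rfl⟩
      rw [← hR] at h3 herr
      have hLA : 20 * A / ε' ≤ L := by linarith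
      clear hR hM hM1 hwM hw6 hw5 hnη hlη hxn
      have hd0 : 0 < gm K d := by
        have : (0 : ℝ) < d := by exact_mod_cast hd1
        unfold gm
        positivity
      obtain ⟨y, hy⟩ : ∃ y : ℝ, y = gm K d := ⟨_, rfl⟩
      rw [← hy] at h3 hdx hd0 hdx5
      have hVy := (abs_le.1 (hV y hd0 (lt_of_le_of_lt hdx hxu))).1
      have hmono := Ld.cor_mono (μ := disorder n) (X := freeEnergy n β)
        (fun x => Sx.integrable_exp n β x) hd0 hdx
      have hy5 : y ^ 5 ≤ x ^ 5 := pow_le_pow_left₀ hd0.le hdx 5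
      have hz21 : 1 / L ≤ 1 := by
        rw [div_le_one hL0]
        exact hL1
      have hA5 : A * x ^ 5 - ε' / 4 * x ^ 5 ≤ A * y ^ 5 := by
        have h4 : (x * (1 - 1 / L)) ^ 5 ≤ y ^ 5 :=
          pow_le_pow_left₀ (mul_nonneg hx0.le (by linarith)) hdx5 5
        have h5 : 1 + ((5 : ℕ) : ℝ) * (-(1 / L)) ≤ (1 + -(1 / L)) ^ 5 :=
          one_add_mul_le_pow (by linarith) 5
        have h6 : x ^ 5 * (1 - 5 / L) ≤ y ^ 5 := by
          refine le_trans ?_ h4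
          rw [mul_pow]
          refine mul_le_mul_of_nonneg_left ?_ hx5.le
          have e1 : 1 + ((5 : ℕ) : ℝ) * (-(1 / L)) = 1 - 5 / L := by push_cast; ring
          have e2 : (1 + -(1 / L)) ^ 5 = (1 - 1 / L) ^ 5 := by ring
          rw [e1, e2] at h5
          exact h5
        have h7 : A * (5 / L) ≤ ε' / 4 := by
          have h8 : 20 * A / ε' ≤ L := hLA
          rw [div_le_iff₀ hε] at h8
          rw [mul_div_assoc', div_le_iff₀ hL0]
          linarith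
        have h8 := mul_le_mul_of_nonneg_left h6 hA.le
        have h9 := mul_le_mul_of_nonneg_right h7 hx5.le
        have e : A * (x ^ 5 * (1 - 5 / L)) = A * x ^ 5 - A * (5 / L) * x ^ 5 := by ring
        rw [e] at h8
        linarith
      have hε5 : ε' / 4 * y ^ 5 ≤ ε' / 4 * x ^ 5 := mul_le_mul_of_nonneg_left hy5 (by positivity)
      have h6 : (n : ℝ) * (Real.log 2 + P0 β) + n * (A * x ^ 5) - n * (3 / 4 * ε' * x ^ 5) ≤
          1 / x * Real.log (∫ g, Real.exp (x * freeEnergy n β g) ∂(disorder n)) := by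
        have h7 : (n : ℝ) * (P0 β + A * x ^ 5 - ε' / 2 * x ^ 5) ≤ n * Vx β y :=
          mul_le_mul_of_nonneg_left (by linarith) hn0.le
        have h8 : (n : ℝ) * (Real.log 2 + Vx β y) = n * Real.log 2 + n * Vx β y := by ring
        rw [h8] at h3
        nlinarith
      have h9 := mul_le_mul_of_nonneg_left h6 hx0.le
      have e1 : x * (1 / x * Real.log (∫ g, Real.exp (x * freeEnergy n β g) ∂(disorder n))) =
          Real.log (∫ g, Real.exp (x * freeEnergy n β g) ∂(disorder n)) := by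
        field_simp
      rw [e1] at h9
      have h10 : 0 ≤ ε' * n * x ^ 6 := by positivity
      have e2 : x * (n * (Real.log 2 + P0 β) + n * (A * x ^ 5) - n * (3 / 4 * ε' * x ^ 5)) =
          x * (n * (Real.log 2 + P0 β)) + A * n * x ^ 6 - 3 / 4 * (ε' * n * x ^ 6) := by ring
      rw [e2] at h9
      linarith
    · -- the upper bound
      have h3 : x * n * (Real.log 2 + Vx β x) ≤
          x * n * (Real.log 2 + (P0 β + A * x ^ 5 + ε' / 4 * x ^ 5)) :=
        mul_le_mul_of_nonneg_left (by linarith) (by positivity)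
      have h10 : 0 ≤ ε' * n * x ^ 6 := by positivity
      have e2 : x * n * (Real.log 2 + (P0 β + A * x ^ 5 + ε' / 4 * x ^ 5)) =
          x * (n * (Real.log 2 + P0 β)) + A * n * x ^ 6 + 1 / 4 * (ε' * n * x ^ 6) := by ring
      rw [e2] at h3
      linarith
  refine hgoal.trans ?_
  gcongr

/-- **The sharp upper tail, uniformly for `s ≥ n ^ (-b)`, every `b < 5 / 26`.** -/
theorem sharp_ldp {β : ℝ} (hβ : 1 < β) {A : ℝ} (hA : 0 < A)
    (hlim : Tendsto (fun x => (Vx β x - P0 β) / x ^ 5) (𝓝[>] 0) (𝓝 A)) {b : ℝ}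
    (hb : b < 5 / 26) :
    ∀ ε : ℝ, 0 < ε → ∃ s₀ : ℝ, 0 < s₀ ∧ ∃ N : ℕ, ∀ n : ℕ, N ≤ n → ∀ s : ℝ,
      (n : ℝ) ^ (-b) ≤ s → s ≤ s₀ →
      |Real.log ((disorder n).real {g | n * (Sx.pv β + s) ≤ freeEnergy n β g}) +
        5 / 6 * (6 * A) ^ (-(1 / 5) : ℝ) * n * s ^ (6 / 5 : ℝ)| ≤
          ε * n * s ^ (6 / 5 : ℝ) := by
  obtain ⟨a, ha⟩ : ∃ a, a = (b / 5 + 1 / 26) / 2 := ⟨_, rfl⟩
  exact ldp_abs_u (μ := fun n => disorder n) (X := fun n g => freeEnergy n β g) (a := a)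
    (b := b) (fun _ => Ub.measurable_free β) (fun n x => Sx.integrable_exp n β x) hA
    (by rw [ha]; linarith) (by rw [ha]; linarith)
    (fun ε hε => sharp_moment hβ hA hlim (by rw [ha]; linarith) hε)

end Vale.Agent.P146.Tb
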